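import Vale.Agent.Snaky.Fast

/-!
Monotonicity of `ForcedIn` and `Valid` in the number of moves.
-/

namespace Vale.Agent.Snaky

lemma ForcedIn.succ : ∀ (c : ℕ) {M B : Finset Cell}, ForcedIn c M B → ForcedIn (c + 1) M B := by
  intro c
  induction c with
  | zero => intro M B h; exact absurd h forcedIn_zero
  | succ c ihc =>
    intro M B h
    obtain ⟨m, hm1, hm2, hm3⟩ := h
    refine ⟨m, hm1, hm2, ?_⟩
    rcases hm3 with hm3 | hm3
    · exact Or.inl hm3
    · exact Or.inr (fun b hb1 hb2 => ihc (hm3 b hb1 hb2))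

lemma ForcedIn.mono {a b : ℕ} (hab : a ≤ b) {M B : Finset Cell} (h : ForcedIn a M B) :
    ForcedIn b M B := by
  induction hab with
  | refl => exact h
  | step _ ih => exact ForcedIn.succ _ ih

lemma Valid.mono {a b M Z : ℕ} (hab : a ≤ b) (h : Valid a M Z) : Valid b M Z :=
  fun B hB => ForcedIn.mono hab (h B hB)

lemma decode_origin_bit : decode (bit 528) = {((0 : ℤ), (0 : ℤ))} := by
  have h : decode (0 ||| bit 528) = insert (cellOf 528) (decode 0) := decode_or_bit (by norm_num)
  have h2 : (0 ||| bit 528) = bit 528 := by simp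
  rw [h2] at h
  rw [h, decode_zero]
  have h3 : cellOf 528 = ((0 : ℤ), (0 : ℤ)) := by decide +kernel
  rw [h3]
  rfl

end Vale.Agent.Snaky
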