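import Vale.Agent.Snaky.Data.L10
import Vale.Agent.Snaky.Data.L11
import Vale.Agent.Snaky.Data.L12
import Vale.Agent.Snaky.Data.L13
import Vale.Agent.Snaky.Data.L14
import Vale.Agent.Snaky.Data.L15
import Vale.Agent.Snaky.Data.L16
import Vale.Agent.Snaky.Data.L17
import Vale.Agent.Snaky.Data.L18
import Vale.Agent.Snaky.Data.L19
import Vale.Agent.Snaky.Data.L110
import Vale.Agent.Snaky.Data.L111
import Vale.Agent.Snaky.Data.L112
import Vale.Agent.Snaky.Data.L113
import Vale.Agent.Snaky.Data.L114
import Vale.Agent.Snaky.Data.L115
import Vale.Agent.Snaky.Data.L116
import Vale.Agent.Snaky.Data.L117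
import Vale.Agent.Snaky.Data.L118
import Vale.Agent.Snaky.Data.L119
import Vale.Agent.Snaky.Data.L120
import Vale.Agent.Snaky.Data.L121
import Vale.Agent.Snaky.Data.L122
import Vale.Agent.Snaky.Data.L123
import Vale.Agent.Snaky.Data.L124
import Vale.Agent.Snaky.Data.L125
import Vale.Agent.Snaky.Data.L126
import Vale.Agent.Snaky.Mono

/-!
Breaker replies at the second turn in the line where Breaker answered at `(1,0)` and Maker
continued at `(0,1)`.
-/

namespace Vale.Agent.Snaky

lemma line1_partial : Partial 13 2636082301490154130553049906847254995431463155255029277207473968327248582424699924015062902013998549111281783574328649486254843391891191224028426863788181946368 3514776401986872174070733209129673327241950873673372369609965291102998109899599898686750536018664732148375711432438199315006457855854921632037902485050909261824 4692198038760199859170504654003832593722187367506949422734161132979491023826785941379310130288217635341002364376552758963176686347268518309360920758890281830816135114068324512695217927827680188464035281258261119153619396281563826528250491413331903642599424 := by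
  have h := Partial.add (Partial.add (Partial.add (Partial.add (Partial.add (Partial.add (Partial.add (Partial.add (Partial.add (Partial.add (Partial.add (Partial.add (Partial.add (Partial.add (Partial.add (Partial.add (Partial.add (Partial.add (Partial.add (Partial.add (Partial.add (Partial.add (Partial.add (Partial.add (Partial.add (Partial.add (Partial.one (Valid.mono (by norm_num) Data.L10.root)) (Valid.mono (by norm_num) Data.L11.root)) (Valid.mono (by norm_num) Data.L12.root)) (Data.L13.root)) (Data.L14.root)) (Valid.mono (by norm_num) Data.L15.root)) (Valid.mono (by norm_num) Data.L16.root)) (Valid.mono (by norm_num) Data.L17.root)) (Valid.mono (by norm_num) Data.L18.root)) (Valid.mono (by norm_num) Data.L19.root)) (Valid.mono (by norm_num) Data.L110.root)) (Valid.mono (by norm_num) Data.L111.root)) (Valid.mono (by norm_num) Data.L112.root)) (Valid.mono (by norm_num) Data.L113.root)) (Valid.mono (by norm_num) Data.L114.root)) (Valid.mono (by norm_num) Data.L115.root)) (Valid.mono (by norm_num) Data.L116.root)) (Valid.mono (by norm_num) Data.L117.root)) (Valid.mono (by norm_num) Data.L118.root)) (Valid.mono (by norm_num) Data.L119.root)) (Valid.mono (by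 norm_num) Data.L120.root)) (Valid.mono (by norm_num) Data.L121.root)) (Valid.mono (by norm_num) Data.L122.root)) (Valid.mono (by norm_num) Data.L123.root)) (Valid.mono (by norm_num) Data.L124.root)) (Valid.mono (by norm_num) Data.L125.root)) (Valid.mono (by norm_num) Data.L126.root)
  exact h

lemma line1_inter_sub : ∀ i, i < 1024 → Nat.testBit 3514776401986872174070733209129673327241950873673372369609965291102998109899599898686750536018664732148375711432438199315006457855854921632037902485050909261824 i = true → cellOf i = ((0 : ℤ), (2 : ℤ)) := by
  decide +kernel

lemma line1_uni_free : ∀ i, i < 1024 → Nat.testBit 4692198038760199859170504654003832593722187367506949422734161132979491023826785941379310130288217635341002364376552758963176686347268518309360920758890281830816135114068324512695217927827680188464035281258261119153619396281563826528250491413331903642599424 i = true → cellOf i ≠ ((1 : ℤ), (0 : ℤ)) := by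
  decide +kernel

lemma decode_line1 : decode 2636082301490154130553049906847254995431463155255029277207473968327248582424699924015062902013998549111281783574328649486254843391891191224028426863788181946368 = {((0 : ℤ), (0 : ℤ)), ((0 : ℤ), (1 : ℤ))} := by
  ext c
  rw [mem_decode]
  constructor
  · rintro ⟨i, hi, hbit, rfl⟩
    have h : ∀ i, i < 1024 → Nat.testBit 2636082301490154130553049906847254995431463155255029277207473968327248582424699924015062902013998549111281783574328649486254843391891191224028426863788181946368 i = true → cellOf i = ((0 : ℤ), (0 : ℤ)) ∨ cellOf i = ((0 : ℤ), (1 : ℤ)) := by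
      decide +kernel
    simpa using h i hi hbit
  · intro h
    simp only [Finset.mem_insert, Finset.mem_singleton] at h
    rcases h with rfl | rfl
    · exact ⟨528, by norm_num, by decide +kernel, by decide +kernel⟩
    · exact ⟨529, by norm_num, by decide +kernel, by decide +kernel⟩

/-- Every Breaker reply other than `(0,2)` loses in this line. -/
theorem line1_replies (r : Cell) (h : r ≠ ((0 : ℤ), (2 : ℤ))) :
    ForcedIn 13 {((0 : ℤ), (0 : ℤ)), ((0 : ℤ), (1 : ℤ))} {((1 : ℤ), (0 : ℤ)), r} := by
  have hb : r ∉ decode 3514776401986872174070733209129673327241950873673372369609965291102998109899599898686750536018664732148375711432438199315006457855854921632037902485050909261824 := by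
    intro hm
    rw [mem_decode] at hm
    obtain ⟨i, hi, hbit, hc⟩ := hm
    apply h
    rw [← hc]
    exact line1_inter_sub i hi hbit
  obtain ⟨z, hz, hbz, hsub⟩ := line1_partial r hb
  have h10 : ((1 : ℤ), (0 : ℤ)) ∉ decode z := by
    intro hm
    have hm2 := hsub hm
    rw [mem_decode] at hm2
    obtain ⟨i, hi, hbit, hc⟩ := hm2
    exact line1_uni_free i hi hbit hc
  have hd : Disjoint (decode z) ({((1 : ℤ), (0 : ℤ)), r} : Finset Cell) := by
    rw [Finset.disjoint_left]
    intro c hc hc2
    simp only [Finset.mem_insert, Finset.mem_singleton] at hc2
    rcases hc2 with rfl | rfl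
    · exact h10 hc
    · exact hbz hc
  have := hz _ hd
  rwa [decode_line1] at this

end Vale.Agent.Snaky
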