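import Vale.Agent.Snaky.Data.L20
import Vale.Agent.Snaky.Data.L21
import Vale.Agent.Snaky.Data.L22
import Vale.Agent.Snaky.Data.L23
import Vale.Agent.Snaky.Data.L24
import Vale.Agent.Snaky.Data.L25
import Vale.Agent.Snaky.Data.L26
import Vale.Agent.Snaky.Data.L27
import Vale.Agent.Snaky.Data.L28
import Vale.Agent.Snaky.Data.L29
import Vale.Agent.Snaky.Data.L210
import Vale.Agent.Snaky.Data.L211
import Vale.Agent.Snaky.Data.L212
import Vale.Agent.Snaky.Data.L213
import Vale.Agent.Snaky.Data.L214
import Vale.Agent.Snaky.Data.L215
import Vale.Agent.Snaky.Data.L216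
import Vale.Agent.Snaky.Data.L217
import Vale.Agent.Snaky.Mono

/-!
Breaker replies in the line `(0,0), (1,0), (0,1), (0,2), (0,-2)`.
-/

namespace Vale.Agent.Snaky

lemma line2_partial : Partial 13 2855755826614333641432470732417859578384085084859615050308096799021185964293424917682984810515165094870555265538856036943442747007882123826030795769103863775232 439347050248359021758841651141209165905243859209171546201245661387874763737449987335843817002333091518546963929054774914375807231981865204004737810631363657728 1163817919905031116916891834641765111459783105709803713510038389878971948896141373735319542312674731447773115478650242445803783584399211208749576627990250687930561349055860372062913555641953381631537354637312 := by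
  have h := Partial.add (Partial.add (Partial.add (Partial.add (Partial.add (Partial.add (Partial.add (Partial.add (Partial.add (Partial.add (Partial.add (Partial.add (Partial.add (Partial.add (Partial.add (Partial.add (Partial.add (Partial.one (Valid.mono (by norm_num) Data.L20.root)) (Valid.mono (by norm_num) Data.L21.root)) (Valid.mono (by norm_num) Data.L22.root)) (Valid.mono (by norm_num) Data.L23.root)) (Valid.mono (by norm_num) Data.L24.root)) (Valid.mono (by norm_num) Data.L25.root)) (Valid.mono (by norm_num) Data.L26.root)) (Valid.mono (by norm_num) Data.L27.root)) (Data.L28.root)) (Valid.mono (by norm_num) Data.L29.root)) (Valid.mono (by norm_num) Data.L210.root)) (Valid.mono (by norm_num) Data.L211.root)) (Valid.mono (by norm_num) Data.L212.root)) (Valid.mono (by norm_num) Data.L213.root)) (Valid.mono (by norm_num) Data.L214.root)) (Valid.mono (by norm_num) Data.L215.root)) (Valid.mono (by norm_num) Data.L216.root)) (Valid.mono (by norm_num) Data.L217.root)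
  exact h

lemma line2_inter_sub : ∀ i, i < 1024 → Nat.testBit 439347050248359021758841651141209165905243859209171546201245661387874763737449987335843817002333091518546963929054774914375807231981865204004737810631363657728 i = true → cellOf i = ((0 : ℤ), (-1 : ℤ)) := by
  decide +kernel

lemma line2_uni_free : ∀ i, i < 1024 → Nat.testBit 1163817919905031116916891834641765111459783105709803713510038389878971948896141373735319542312674731447773115478650242445803783584399211208749576627990250687930561349055860372062913555641953381631537354637312 i = true →
    cellOf i ≠ ((1 : ℤ), (0 : ℤ)) ∧ cellOf i ≠ ((0 : ℤ), (2 : ℤ)) := by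
  decide +kernel

lemma decode_line2 : decode 2855755826614333641432470732417859578384085084859615050308096799021185964293424917682984810515165094870555265538856036943442747007882123826030795769103863775232 = {((0 : ℤ), (0 : ℤ)), ((0 : ℤ), (1 : ℤ)), ((0 : ℤ), (-2 : ℤ))} := by
  ext c
  rw [mem_decode]
  constructor
  · rintro ⟨i, hi, hbit, rfl⟩
    have h : ∀ i, i < 1024 → Nat.testBit 2855755826614333641432470732417859578384085084859615050308096799021185964293424917682984810515165094870555265538856036943442747007882123826030795769103863775232 i = true →
        cellOf i = ((0 : ℤ), (0 : ℤ)) ∨ cellOf i = ((0 : ℤ), (1 : ℤ)) ∨ cellOf i = ((0 : ℤ), (-2 : ℤ)) := by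
      decide +kernel
    simpa using h i hi hbit
  · intro h
    simp only [Finset.mem_insert, Finset.mem_singleton] at h
    rcases h with rfl | rfl | rfl
    · exact ⟨528, by norm_num, by decide +kernel, by decide +kernel⟩
    · exact ⟨529, by norm_num, by decide +kernel, by decide +kernel⟩
    · exact ⟨526, by norm_num, by decide +kernel, by decide +kernel⟩

/-- Every Breaker reply other than `(0,-1)` loses in this line. -/
theorem line2_replies (r : Cell) (h : r ≠ ((0 : ℤ), (-1 : ℤ))) :
    ForcedIn 13 {((0 : ℤ), (0 : ℤ)), ((0 : ℤ), (1 : ℤ)), ((0 : ℤ), (-2 : ℤ))}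
      {((1 : ℤ), (0 : ℤ)), ((0 : ℤ), (2 : ℤ)), r} := by
  have hb : r ∉ decode 439347050248359021758841651141209165905243859209171546201245661387874763737449987335843817002333091518546963929054774914375807231981865204004737810631363657728 := by
    intro hm
    rw [mem_decode] at hm
    obtain ⟨i, hi, hbit, hc⟩ := hm
    apply h
    rw [← hc]
    exact line2_inter_sub i hi hbit
  obtain ⟨z, hz, hbz, hsub⟩ := line2_partial r hb
  have h10 : ((1 : ℤ), (0 : ℤ)) ∉ decode z := by
    intro hm
    have hm2 := hsub hm
    rw [mem_decode] at hm2
    obtain ⟨i, hi, hbit, hc⟩ := hm2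
    exact (line2_uni_free i hi hbit).1 hc
  have h02 : ((0 : ℤ), (2 : ℤ)) ∉ decode z := by
    intro hm
    have hm2 := hsub hm
    rw [mem_decode] at hm2
    obtain ⟨i, hi, hbit, hc⟩ := hm2
    exact (line2_uni_free i hi hbit).2 hc
  have hd : Disjoint (decode z) ({((1 : ℤ), (0 : ℤ)), ((0 : ℤ), (2 : ℤ)), r} : Finset Cell) := by
    rw [Finset.disjoint_left]
    intro c hc hc2
    simp only [Finset.mem_insert, Finset.mem_singleton] at hc2
    rcases hc2 with rfl | rfl | rfl
    · exact h10 hc
    · exact h02 hc
    · exact hbz hc
  have := hz _ hd
  rwa [decode_line2] at this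

end Vale.Agent.Snaky
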