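import Vale.Agent.Snaky.Forced

/-!
A checker for winning certificates of the Snaky game, and its soundness.
Cells with indices below `1024` are coded by `i ↦ (i / 32 - 16, i % 32 - 16)`, and sets of cells
by bit masks. A certificate is read from a stream of 24-bit tokens stored in a natural number.
-/

namespace Vale.Agent.Snaky

/-- The cell with index `i`. -/
def cellOf (i : ℕ) : Cell := (((i / 32 : ℕ) : ℤ) - 16, ((i % 32 : ℕ) : ℤ) - 16)

/-- The set of cells coded by a bit mask. -/
def decode (S : ℕ) : Finset Cell :=
  ((Finset.range 1024).filter (fun i => S.testBit i = true)).image cellOf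

/-- The mask of a single index. -/
def bit (m : ℕ) : ℕ := Nat.shiftLeft 1 m

/-- The mask of the normalized copy of Snaky in orientation `o`. -/
def base : ℕ → ℕ
  | 0 => 680564734079561414487988971722172792833
  | 1 => 340282367158622951043061108368409100290
  | 2 => 340282367000166625996085689111906615298
  | 3 => 680564734000333251992171378210928328705
  | 4 => 103079215119
  | 5 => 12884901918
  | 6 => 64424509464
  | 7 => 128849018883
  | _ => 0

/-- The mask of the copy in orientation `o` with anchor `(X, Y)`. -/
def mask (o X Y : ℕ) : ℕ := Nat.shiftLeft (base o) (X * 32 + Y)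

lemma mem_decode {S : ℕ} {c : Cell} :
    c ∈ decode S ↔ ∃ i, i < 1024 ∧ S.testBit i = true ∧ cellOf i = c := by
  simp [decode, and_assoc]

lemma cellOf_injOn {i j : ℕ} (h : cellOf i = cellOf j) : i = j := by
  simp only [cellOf, Prod.mk.injEq] at h
  have h1 : i / 32 = j / 32 := by omega
  have h2 : i % 32 = j % 32 := by omega
  have := Nat.div_add_mod i 32
  have := Nat.div_add_mod j 32
  omega

lemma cellOf_mem_decode_iff {S i : ℕ} (hi : i < 1024) :
    cellOf i ∈ decode S ↔ S.testBit i = true := by
  rw [mem_decode]
  constructor
  · rintro ⟨j, _, hj2, hj3⟩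
    rw [← cellOf_injOn hj3]; exact hj2
  · intro h
    exact ⟨i, hi, h, rfl⟩

lemma testBit_bit (m i : ℕ) : (bit m).testBit i = decide (m = i) := by
  unfold bit
  have : Nat.shiftLeft 1 m = 2 ^ m := by
    have := Nat.one_shiftLeft m
    simpa using this
  rw [this, Nat.testBit_two_pow]

lemma decode_or_bit {M m : ℕ} (hm : m < 1024) :
    decode (M ||| bit m) = insert (cellOf m) (decode M) := by
  ext c
  rw [Finset.mem_insert, mem_decode, mem_decode]
  constructor
  · rintro ⟨i, hi, hb, hc⟩
    rw [Nat.testBit_or, Bool.or_eq_true] at hb
    rcases hb with hb | hb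
    · exact Or.inr ⟨i, hi, hb, hc⟩
    · left
      rw [testBit_bit] at hb
      have : m = i := by simpa using hb
      rw [← hc, this]
  · rintro (h | ⟨i, hi, hb, hc⟩)
    · refine ⟨m, hm, ?_, h.symm⟩
      rw [Nat.testBit_or, Bool.or_eq_true]
      right
      rw [testBit_bit]; simp
    · refine ⟨i, hi, ?_, hc⟩
      rw [Nat.testBit_or, hb]; simp

lemma decode_or (a b : ℕ) : decode (a ||| b) = decode a ∪ decode b := by
  ext c
  rw [Finset.mem_union, mem_decode, mem_decode, mem_decode]
  constructor
  · rintro ⟨i, hi, hb, hc⟩
    rw [Nat.testBit_or, Bool.or_eq_true] at hb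
    rcases hb with hb | hb
    · exact Or.inl ⟨i, hi, hb, hc⟩
    · exact Or.inr ⟨i, hi, hb, hc⟩
  · rintro (⟨i, hi, hb, hc⟩ | ⟨i, hi, hb, hc⟩)
    · exact ⟨i, hi, by rw [Nat.testBit_or, hb]; simp, hc⟩
    · exact ⟨i, hi, by rw [Nat.testBit_or, hb]; simp, hc⟩

lemma decode_and_subset {a b : ℕ} {c : Cell} (h : c ∈ decode a) (h' : c ∈ decode b) :
    c ∈ decode (a &&& b) := by
  rw [mem_decode] at h h' ⊢
  obtain ⟨i, hi, hb, hc⟩ := h
  obtain ⟨j, _, hb', hc'⟩ := h'
  have : i = j := cellOf_injOn (hc.trans hc'.symm)
  subst this
  exact ⟨i, hi, by rw [Nat.testBit_and, hb, hb']; rfl, hc⟩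

lemma decode_zero : decode 0 = ∅ := by
  ext c
  rw [mem_decode]
  simp

/-- A cell of the copy in orientation `o` lies in `decode S` when `mask o X Y ⊆ S`. -/
lemma cell_mem_decode {o X Y S : ℕ} (hS : mask o X Y &&& S = mask o X Y) {dx dy : ℕ}
    (hb : (base o).testBit (dx * 32 + dy) = true) (hy : Y + dy < 32) (hx : X + dx < 32) :
    (((X + dx : ℕ) : ℤ) - 16, ((Y + dy : ℕ) : ℤ) - 16) ∈ decode S := by
  have hidx : (X + dx) * 32 + (Y + dy) = (dx * 32 + dy) + (X * 32 + Y) := by ring
  have hm : (mask o X Y).testBit ((X + dx) * 32 + (Y + dy)) = true := by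
    unfold mask
    have : Nat.shiftLeft (base o) (X * 32 + Y) = base o <<< (X * 32 + Y) := rfl
    rw [this, hidx, Nat.testBit_shiftLeft]
    simp [hb]
  have hS' : S.testBit ((X + dx) * 32 + (Y + dy)) = true := by
    rw [← hS, Nat.testBit_and, Bool.and_eq_true] at hm
    exact hm.2
  have hlt : (X + dx) * 32 + (Y + dy) < 1024 := by omega
  have hcell : cellOf ((X + dx) * 32 + (Y + dy)) =
      (((X + dx : ℕ) : ℤ) - 16, ((Y + dy : ℕ) : ℤ) - 16) := by
    have h1 : ((X + dx) * 32 + (Y + dy)) / 32 = X + dx := by omega
    have h2 : ((X + dx) * 32 + (Y + dy)) % 32 = Y + dy := by omega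
    simp only [cellOf, h1, h2]
  rw [← hcell]
  exact (cellOf_mem_decode_iff hlt).2 hS'

lemma copy_of_mask {o X Y S : ℕ} (ho : o < 8) (hX : X + 4 < 32) (hY : Y + 4 < 32)
    (hS : mask o X Y &&& S = mask o X Y) : OwnsCopy (decode S) := by
  have key : ∀ dx dy : ℕ, dx ≤ 4 → dy ≤ 4 → (base o).testBit (dx * 32 + dy) = true →
      (((X + dx : ℕ) : ℤ) - 16, ((Y + dy : ℕ) : ℤ) - 16) ∈ decode S :=
    fun dx dy hdx hdy hb => cell_mem_decode hS hb (by omega) (by omega)
  interval_cases o
  · refine ⟨_, ⟨1, 1, false, ((X : ℤ) - 16 + 0, (Y : ℤ) - 16 + 0), by norm_num, by norm_num, rfl⟩, ?_⟩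
    intro c hc
    simp only [snaky, Finset.image_insert, Finset.image_singleton, Finset.mem_insert, Finset.mem_singleton] at hc
    rcases hc with rfl | rfl | rfl | rfl | rfl | rfl
    · have h := key 0 0 (by norm_num) (by norm_num) (by decide)
      convert h using 2 <;> simp [place] <;> ring
    · have h := key 1 0 (by norm_num) (by norm_num) (by decide)
      convert h using 2 <;> simp [place] <;> ring
    · have h := key 2 0 (by norm_num) (by norm_num) (by decide)
      convert h using 2 <;> simp [place] <;> ring
    · have h := key 3 0 (by norm_num) (by norm_num) (by decide)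
      convert h using 2 <;> simp [place] <;> ring
    · have h := key 3 1 (by norm_num) (by norm_num) (by decide)
      convert h using 2 <;> simp [place] <;> ring
    · have h := key 4 1 (by norm_num) (by norm_num) (by decide)
      convert h using 2 <;> simp [place] <;> ring
  · refine ⟨_, ⟨1, -1, false, ((X : ℤ) - 16 + 0, (Y : ℤ) - 16 + 1), by norm_num, by norm_num, rfl⟩, ?_⟩
    intro c hc
    simp only [snaky, Finset.image_insert, Finset.image_singleton, Finset.mem_insert, Finset.mem_singleton] at hc
    rcases hc with rfl | rfl | rfl | rfl | rfl | rfl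
    · have h := key 0 1 (by norm_num) (by norm_num) (by decide)
      convert h using 2 <;> simp [place] <;> ring
    · have h := key 1 1 (by norm_num) (by norm_num) (by decide)
      convert h using 2 <;> simp [place] <;> ring
    · have h := key 2 1 (by norm_num) (by norm_num) (by decide)
      convert h using 2 <;> simp [place] <;> ring
    · have h := key 3 1 (by norm_num) (by norm_num) (by decide)
      convert h using 2 <;> simp [place] <;> ring
    · have h := key 3 0 (by norm_num) (by norm_num) (by decide)
      convert h using 2 <;> simp [place] <;> ring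
    · have h := key 4 0 (by norm_num) (by norm_num) (by decide)
      convert h using 2 <;> simp [place] <;> ring
  · refine ⟨_, ⟨-1, 1, false, ((X : ℤ) - 16 + 4, (Y : ℤ) - 16 + 0), by norm_num, by norm_num, rfl⟩, ?_⟩
    intro c hc
    simp only [snaky, Finset.image_insert, Finset.image_singleton, Finset.mem_insert, Finset.mem_singleton] at hc
    rcases hc with rfl | rfl | rfl | rfl | rfl | rfl
    · have h := key 4 0 (by norm_num) (by norm_num) (by decide)
      convert h using 2 <;> simp [place] <;> ring
    · have h := key 3 0 (by norm_num) (by norm_num) (by decide)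
      convert h using 2 <;> simp [place] <;> ring
    · have h := key 2 0 (by norm_num) (by norm_num) (by decide)
      convert h using 2 <;> simp [place] <;> ring
    · have h := key 1 0 (by norm_num) (by norm_num) (by decide)
      convert h using 2 <;> simp [place] <;> ring
    · have h := key 1 1 (by norm_num) (by norm_num) (by decide)
      convert h using 2 <;> simp [place] <;> ring
    · have h := key 0 1 (by norm_num) (by norm_num) (by decide)
      convert h using 2 <;> simp [place] <;> ring
  · refine ⟨_, ⟨-1, -1, false, ((X : ℤ) - 16 + 4, (Y : ℤ) - 16 + 1), by norm_num, by norm_num, rfl⟩, ?_⟩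
    intro c hc
    simp only [snaky, Finset.image_insert, Finset.image_singleton, Finset.mem_insert, Finset.mem_singleton] at hc
    rcases hc with rfl | rfl | rfl | rfl | rfl | rfl
    · have h := key 4 1 (by norm_num) (by norm_num) (by decide)
      convert h using 2 <;> simp [place] <;> ring
    · have h := key 3 1 (by norm_num) (by norm_num) (by decide)
      convert h using 2 <;> simp [place] <;> ring
    · have h := key 2 1 (by norm_num) (by norm_num) (by decide)
      convert h using 2 <;> simp [place] <;> ring
    · have h := key 1 1 (by norm_num) (by norm_num) (by decide)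
      convert h using 2 <;> simp [place] <;> ring
    · have h := key 1 0 (by norm_num) (by norm_num) (by decide)
      convert h using 2 <;> simp [place] <;> ring
    · have h := key 0 0 (by norm_num) (by norm_num) (by decide)
      convert h using 2 <;> simp [place] <;> ring
  · refine ⟨_, ⟨1, 1, true, ((X : ℤ) - 16 + 0, (Y : ℤ) - 16 + 0), by norm_num, by norm_num, rfl⟩, ?_⟩
    intro c hc
    simp only [snaky, Finset.image_insert, Finset.image_singleton, Finset.mem_insert, Finset.mem_singleton] at hc
    rcases hc with rfl | rfl | rfl | rfl | rfl | rfl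
    · have h := key 0 0 (by norm_num) (by norm_num) (by decide)
      convert h using 2 <;> simp [place] <;> ring
    · have h := key 0 1 (by norm_num) (by norm_num) (by decide)
      convert h using 2 <;> simp [place] <;> ring
    · have h := key 0 2 (by norm_num) (by norm_num) (by decide)
      convert h using 2 <;> simp [place] <;> ring
    · have h := key 0 3 (by norm_num) (by norm_num) (by decide)
      convert h using 2 <;> simp [place] <;> ring
    · have h := key 1 3 (by norm_num) (by norm_num) (by decide)
      convert h using 2 <;> simp [place] <;> ring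
    · have h := key 1 4 (by norm_num) (by norm_num) (by decide)
      convert h using 2 <;> simp [place] <;> ring
  · refine ⟨_, ⟨1, -1, true, ((X : ℤ) - 16 + 0, (Y : ℤ) - 16 + 4), by norm_num, by norm_num, rfl⟩, ?_⟩
    intro c hc
    simp only [snaky, Finset.image_insert, Finset.image_singleton, Finset.mem_insert, Finset.mem_singleton] at hc
    rcases hc with rfl | rfl | rfl | rfl | rfl | rfl
    · have h := key 0 4 (by norm_num) (by norm_num) (by decide)
      convert h using 2 <;> simp [place] <;> ring
    · have h := key 0 3 (by norm_num) (by norm_num) (by decide)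
      convert h using 2 <;> simp [place] <;> ring
    · have h := key 0 2 (by norm_num) (by norm_num) (by decide)
      convert h using 2 <;> simp [place] <;> ring
    · have h := key 0 1 (by norm_num) (by norm_num) (by decide)
      convert h using 2 <;> simp [place] <;> ring
    · have h := key 1 1 (by norm_num) (by norm_num) (by decide)
      convert h using 2 <;> simp [place] <;> ring
    · have h := key 1 0 (by norm_num) (by norm_num) (by decide)
      convert h using 2 <;> simp [place] <;> ring
  · refine ⟨_, ⟨-1, 1, true, ((X : ℤ) - 16 + 1, (Y : ℤ) - 16 + 0), by norm_num, by norm_num, rfl⟩, ?_⟩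
    intro c hc
    simp only [snaky, Finset.image_insert, Finset.image_singleton, Finset.mem_insert, Finset.mem_singleton] at hc
    rcases hc with rfl | rfl | rfl | rfl | rfl | rfl
    · have h := key 1 0 (by norm_num) (by norm_num) (by decide)
      convert h using 2 <;> simp [place] <;> ring
    · have h := key 1 1 (by norm_num) (by norm_num) (by decide)
      convert h using 2 <;> simp [place] <;> ring
    · have h := key 1 2 (by norm_num) (by norm_num) (by decide)
      convert h using 2 <;> simp [place] <;> ring
    · have h := key 1 3 (by norm_num) (by norm_num) (by decide)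
      convert h using 2 <;> simp [place] <;> ring
    · have h := key 0 3 (by norm_num) (by norm_num) (by decide)
      convert h using 2 <;> simp [place] <;> ring
    · have h := key 0 4 (by norm_num) (by norm_num) (by decide)
      convert h using 2 <;> simp [place] <;> ring
  · refine ⟨_, ⟨-1, -1, true, ((X : ℤ) - 16 + 1, (Y : ℤ) - 16 + 4), by norm_num, by norm_num, rfl⟩, ?_⟩
    intro c hc
    simp only [snaky, Finset.image_insert, Finset.image_singleton, Finset.mem_insert, Finset.mem_singleton] at hc
    rcases hc with rfl | rfl | rfl | rfl | rfl | rfl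
    · have h := key 1 4 (by norm_num) (by norm_num) (by decide)
      convert h using 2 <;> simp [place] <;> ring
    · have h := key 1 3 (by norm_num) (by norm_num) (by decide)
      convert h using 2 <;> simp [place] <;> ring
    · have h := key 1 2 (by norm_num) (by norm_num) (by decide)
      convert h using 2 <;> simp [place] <;> ring
    · have h := key 1 1 (by norm_num) (by norm_num) (by decide)
      convert h using 2 <;> simp [place] <;> ring
    · have h := key 0 1 (by norm_num) (by norm_num) (by decide)
      convert h using 2 <;> simp [place] <;> ring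
    · have h := key 0 0 (by norm_num) (by norm_num) (by decide)
      convert h using 2 <;> simp [place] <;> ring

/-- Token layout. -/
def tokBase : ℕ := 16777216

/-- Loop over the remaining children of a move: `inter` and `uni` accumulate the intersection
and the union of their zones. -/
def runKids (r : ℕ → Option (ℕ × ℕ)) : ℕ → ℕ → ℕ → ℕ → Option (ℕ × ℕ × ℕ)
  | 0, s, inter, uni => some (inter, uni, s)
  | k + 1, s, inter, uni =>
    match r s with
    | none => none
    | some (z, s') => runKids r k s' (inter &&& z) (uni ||| z)

/-- Read one certificate node from the stream `s`, with Maker holding the mask `M`.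
The result is the zone of the node and the rest of the stream. -/
def run : ℕ → ℕ → ℕ → Option (ℕ × ℕ)
  | 0, _, _ => none
  | fuel + 1, s, M =>
    let t := s % tokBase
    let s' := s / tokBase
    let m := (t / 2) % 1024
    cond (M.testBit m) none <|
    let M' := M ||| bit m
    cond (t % 2 == 0)
      (let o := (t / 2048) % 8
       let X := (t / 16384) % 32
       let Y := (t / 524288) % 32
       cond (Nat.ble (X + 5) 32 && Nat.ble (Y + 5) 32 && ((mask o X Y &&& M') == mask o X Y))
         (some (bit m, s')) none)
      (match run fuel s' M' with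
       | none => none
       | some (z, s2) =>
         match runKids (fun x => run fuel x M') (t / 2048 - 1) s2 z z with
         | none => none
         | some (inter, uni, s3) => cond (inter == 0) (some (uni ||| bit m, s3)) none)

/-- `Valid k M Z`: against every Breaker set disjoint from the zone `Z`, Maker holding `M` can
force a win within `k` moves. -/
def Valid (k M Z : ℕ) : Prop :=
  ∀ B : Finset Cell, Disjoint (decode Z) B → ForcedIn k (decode M) B

lemma runKids_sound {r : ℕ → Option (ℕ × ℕ)} {V : ℕ → Prop}
    (hr : ∀ s z s', r s = some (z, s') → V z) :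
    ∀ (k s inter uni inter' uni' s' : ℕ), runKids r k s inter uni = some (inter', uni', s') →
      (∀ c, c ∉ decode inter → ∃ z, V z ∧ c ∉ decode z ∧ decode z ⊆ decode uni) →
      (∀ c, c ∉ decode inter' → ∃ z, V z ∧ c ∉ decode z ∧ decode z ⊆ decode uni') ∧
        decode uni ⊆ decode uni' := by
  intro k
  induction k with
  | zero =>
    intro s inter uni inter' uni' s' h hp
    simp only [runKids, Option.some.injEq, Prod.mk.injEq] at h
    obtain ⟨rfl, rfl, rfl⟩ := h
    exact ⟨hp, subset_rfl⟩
  | succ k ih =>
    intro s inter uni inter' uni' s' h hp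
    simp only [runKids] at h
    cases hs : r s with
    | none => simp [hs] at h
    | some p =>
      obtain ⟨z, s2⟩ := p
      simp only [hs] at h
      have hz := hr s z s2 hs
      have hsub : decode uni ⊆ decode (uni ||| z) := by
        rw [decode_or]; exact Finset.subset_union_left
      have hsub2 : decode z ⊆ decode (uni ||| z) := by
        rw [decode_or]; exact Finset.subset_union_right
      refine (fun hfinal => ⟨hfinal.1, hsub.trans hfinal.2⟩) (ih s2 _ _ _ _ _ h ?_)
      intro c hc
      by_cases hcz : c ∈ decode z
      · have hci : c ∉ decode inter := fun hci => hc (decode_and_subset hci hcz)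
        obtain ⟨z', h1, h2, h3⟩ := hp c hci
        exact ⟨z', h1, h2, h3.trans hsub⟩
      · exact ⟨z, hz, hcz, hsub2⟩

/-- Soundness of the checker. -/
theorem run_sound : ∀ (fuel s M Z s' : ℕ), run fuel s M = some (Z, s') → Valid fuel M Z := by
  intro fuel
  induction fuel with
  | zero =>
    intro s M Z s' h
    simp [run] at h
  | succ fuel ih =>
    intro s M Z s' h
    unfold run at h
    simp only at h
    set t := s % tokBase with ht
    set m := (t / 2) % 1024 with hm
    have hm1024 : m < 1024 := Nat.mod_lt _ (by norm_num)
    cases hbitM : M.testBit m with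
    | true => simp [hbitM] at h
    | false =>
      simp only [hbitM, cond_false, Function.comp, id] at h
      have hnotM : cellOf m ∉ decode M := by
        rw [cellOf_mem_decode_iff hm1024, hbitM]; simp
      have hdec : decode (M ||| bit m) = insert (cellOf m) (decode M) := decode_or_bit hm1024
      cases htag : (t % 2 == 0) with
      | true =>
        simp only [htag, cond_true] at h
        set o := (t / 2048) % 8 with ho
        set X := (t / 16384) % 32 with hX
        set Y := (t / 524288) % 32 with hY
        cases hc : (Nat.ble (X + 5) 32 && Nat.ble (Y + 5) 32 &&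
            ((mask o X Y &&& (M ||| bit m)) == mask o X Y)) with
        | false => simp [hc] at h
        | true =>
          simp only [hc, cond_true, Option.some.injEq, Prod.mk.injEq] at h
          obtain ⟨rfl, _⟩ := h
          simp only [Bool.and_eq_true, beq_iff_eq] at hc
          obtain ⟨⟨hc1, hc2⟩, hc3⟩ := hc
          have hc1' : X + 5 ≤ 32 := Nat.le_of_ble_eq_true hc1
          have hc2' : Y + 5 ≤ 32 := Nat.le_of_ble_eq_true hc2
          have ho8 : o < 8 := Nat.mod_lt _ (by norm_num)
          have hcopy : OwnsCopy (decode (M ||| bit m)) :=
            copy_of_mask ho8 (by omega) (by omega) hc3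
          intro B hB
          have hmem : cellOf m ∈ decode (bit m) := by
            rw [cellOf_mem_decode_iff hm1024, testBit_bit]; simp
          refine ⟨cellOf m, hnotM, Finset.disjoint_left.mp hB hmem, Or.inl ?_⟩
          rw [← hdec]; exact hcopy
      | false =>
        simp only [htag, cond_false] at h
        cases hfirst : run fuel (s / tokBase) (M ||| bit m) with
        | none => simp [hfirst] at h
        | some p =>
          obtain ⟨z, s2⟩ := p
          simp only [hfirst] at h
          cases hk : runKids (fun x => run fuel x (M ||| bit m)) (t / 2048 - 1) s2 z z with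
          | none => simp [hk] at h
          | some q =>
            obtain ⟨inter, uni, s3⟩ := q
            simp only [hk] at h
            cases hi : (inter == 0) with
            | false => simp [hi] at h
            | true =>
              simp only [hi, cond_true, Option.some.injEq, Prod.mk.injEq] at h
              obtain ⟨rfl, _⟩ := h
              have hi0 : inter = 0 := by simpa using hi
              subst hi0
              have hV : ∀ x z' s'', run fuel x (M ||| bit m) = some (z', s'') →
                  Valid fuel (M ||| bit m) z' := fun x z' s'' hh => ih x _ z' s'' hh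
              have hz := ih _ _ _ _ hfirst
              obtain ⟨h1, _⟩ := runKids_sound (V := Valid fuel (M ||| bit m)) hV _ _ _ _ _ _ _ hk
                (fun c hc => ⟨z, hz, hc, subset_rfl⟩)
              intro B hB
              rw [decode_or] at hB
              have hB1 := Finset.disjoint_union_left.mp hB
              have hmem : cellOf m ∈ decode (bit m) := by
                rw [cellOf_mem_decode_iff hm1024, testBit_bit]; simp
              refine ⟨cellOf m, hnotM, Finset.disjoint_left.mp hB1.2 hmem, Or.inr ?_⟩
              intro b hb1 hb2
              rw [decode_zero] at h1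
              obtain ⟨z', hz1, hz2, hz3⟩ := h1 b (by simp)
              rw [← hdec]
              apply hz1
              rw [Finset.disjoint_insert_right]
              exact ⟨hz2, Finset.disjoint_of_subset_left hz3 hB1.1⟩

/-- Partial information on the children of a move. -/
def Partial (k M' inter uni : ℕ) : Prop :=
  ∀ c, c ∉ decode inter → ∃ z, Valid k M' z ∧ c ∉ decode z ∧ decode z ⊆ decode uni

theorem Partial.one {k M' z : ℕ} (h : Valid k M' z) : Partial k M' z z :=
  fun _ hc => ⟨z, h, hc, subset_rfl⟩

theorem Partial.add {k M' inter uni z : ℕ} (p : Partial k M' inter uni) (h : Valid k M' z) :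
    Partial k M' (inter &&& z) (uni ||| z) := by
  intro c hc
  have hsub : decode uni ⊆ decode (uni ||| z) := by
    rw [decode_or]; exact Finset.subset_union_left
  have hsub2 : decode z ⊆ decode (uni ||| z) := by
    rw [decode_or]; exact Finset.subset_union_right
  by_cases hcz : c ∈ decode z
  · have hci : c ∉ decode inter := fun hci => hc (decode_and_subset hci hcz)
    obtain ⟨z', h1, h2, h3⟩ := p c hci
    exact ⟨z', h1, h2, h3.trans hsub⟩
  · exact ⟨z, h, hcz, hsub2⟩

/-- The arithmetic conditions for closing a move. -/
def closeCheck (M M' m inter uni Z : ℕ) : Bool :=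
  Nat.blt m 1024 && !(M.testBit m) && (M' == (M ||| bit m)) && (inter == 0) &&
    (Z == (uni ||| bit m))

theorem Partial.close {k M M' m inter uni Z : ℕ} (p : Partial k M' inter uni)
    (hc : closeCheck M M' m inter uni Z = true) : Valid (k + 1) M Z := by
  simp only [closeCheck, Bool.and_eq_true, Bool.not_eq_true', beq_iff_eq] at hc
  obtain ⟨⟨⟨⟨h1, h2⟩, h3⟩, h4⟩, h5⟩ := hc
  have hm1024 : m < 1024 := by
    have := Nat.le_of_ble_eq_true h1
    omega
  subst h3 h4 h5
  have hnotM : cellOf m ∉ decode M := by
    rw [cellOf_mem_decode_iff hm1024, h2]; simp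
  have hdec : decode (M ||| bit m) = insert (cellOf m) (decode M) := decode_or_bit hm1024
  intro B hB
  rw [decode_or] at hB
  have hB1 := Finset.disjoint_union_left.mp hB
  have hmem : cellOf m ∈ decode (bit m) := by
    rw [cellOf_mem_decode_iff hm1024, testBit_bit]; simp
  refine ⟨cellOf m, hnotM, Finset.disjoint_left.mp hB1.2 hmem, Or.inr ?_⟩
  intro b hb1 hb2
  obtain ⟨z', hz1, hz2, hz3⟩ := p b (by rw [decode_zero]; simp)
  rw [← hdec]
  apply hz1
  rw [Finset.disjoint_insert_right]
  exact ⟨hz2, Finset.disjoint_of_subset_left hz3 hB1.1⟩

/-- The Boolean form of the check used with kernel evaluation. -/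
def check (fuel s M Z : ℕ) : Bool :=
  match run fuel s M with
  | none => false
  | some (z, s') => (z == Z) && (s' == 0)

theorem check_sound {fuel s M Z : ℕ} (h : check fuel s M Z = true) : Valid fuel M Z := by
  unfold check at h
  cases hr : run fuel s M with
  | none => simp [hr] at h
  | some p =>
    obtain ⟨z, s'⟩ := p
    simp only [hr, Bool.and_eq_true, beq_iff_eq] at h
    obtain ⟨rfl, rfl⟩ := h
    exact run_sound _ _ _ _ _ hr

end Vale.Agent.Snaky
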