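import Vale.Agent.Snaky.Data.F0
import Vale.Agent.Snaky.Data.F1
import Vale.Agent.Snaky.Data.F2
import Vale.Agent.Snaky.Data.F3
import Vale.Agent.Snaky.Data.F4
import Vale.Agent.Snaky.Data.F5
import Vale.Agent.Snaky.Data.F6
import Vale.Agent.Snaky.Data.F7
import Vale.Agent.Snaky.Data.F8
import Vale.Agent.Snaky.Data.F9
import Vale.Agent.Snaky.Data.F10
import Vale.Agent.Snaky.Data.F11
import Vale.Agent.Snaky.Data.F12
import Vale.Agent.Snaky.Data.F13
import Vale.Agent.Snaky.Data.F14
import Vale.Agent.Snaky.Data.F15
import Vale.Agent.Snaky.Data.F16
import Vale.Agent.Snaky.Data.F17
import Vale.Agent.Snaky.Data.F18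
import Vale.Agent.Snaky.Data.F19
import Vale.Agent.Snaky.Data.F20
import Vale.Agent.Snaky.Data.F21
import Vale.Agent.Snaky.Data.F22
import Vale.Agent.Snaky.Data.F23
import Vale.Agent.Snaky.Data.F24
import Vale.Agent.Snaky.Data.F25
import Vale.Agent.Snaky.Data.F26
import Vale.Agent.Snaky.Data.F27
import Vale.Agent.Snaky.Data.F28
import Vale.Agent.Snaky.Data.F29
import Vale.Agent.Snaky.Data.F30
import Vale.Agent.Snaky.Data.F31
import Vale.Agent.Snaky.Data.F32

/-!
Combination of the certificates for the Breaker replies far from the first Maker stone.
-/

namespace Vale.Agent.Snaky

/-- The twelve cells near the origin. -/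
def nearCells : Finset Cell := {(-2, 0), (-1, -1), (-1, 0), (-1, 1), (0, -2), (0, -1), (0, 1), (0, 2), (1, -1), (1, 0), (1, 1), (2, 0)}

lemma far_partial : Partial 12 878694100496718043517683302282418331810487718418343092402491322775749527474899974671687634004666183037093927858109549828751614463963730408009475621262727315456 16209045204150247236995673129457940268870586640013389291146447842365789181893494106896160015876279573250995145768544734851185320156097426030737174815732405893125691398581945106432 100680570953619527300509494426131372941590634589761561741435622885772009720922418216855278562664249976953330985414362035346531684767883313563482489016135935146645907078322540572116359704335189238429172444930354008207336396554240 := by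
  have h := Partial.add (Partial.add (Partial.add (Partial.add (Partial.add (Partial.add (Partial.add (Partial.add (Partial.add (Partial.add (Partial.add (Partial.add (Partial.add (Partial.add (Partial.add (Partial.add (Partial.add (Partial.add (Partial.add (Partial.add (Partial.add (Partial.add (Partial.add (Partial.add (Partial.add (Partial.add (Partial.add (Partial.add (Partial.add (Partial.add (Partial.add (Partial.add (Partial.one Data.F0.root) Data.F1.root) Data.F2.root) Data.F3.root) Data.F4.root) Data.F5.root) Data.F6.root) Data.F7.root) Data.F8.root) Data.F9.root) Data.F10.root) Data.F11.root) Data.F12.root) Data.F13.root) Data.F14.root) Data.F15.root) Data.F16.root) Data.F17.root) Data.F18.root) Data.F19.root) Data.F20.root) Data.F21.root) Data.F22.root) Data.F23.root) Data.F24.root) Data.F25.root) Data.F26.root) Data.F27.root) Data.F28.root) Data.F29.root) Data.F30.root) Data.F31.root) Data.F32.root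
  exact h

lemma far_inter_sub : ∀ i, i < 1024 → Nat.testBit 16209045204150247236995673129457940268870586640013389291146447842365789181893494106896160015876279573250995145768544734851185320156097426030737174815732405893125691398581945106432 i = true → cellOf i ∈ nearCells := by
  decide +kernel

lemma decode_origin : decode 878694100496718043517683302282418331810487718418343092402491322775749527474899974671687634004666183037093927858109549828751614463963730408009475621262727315456 = {((0 : ℤ), (0 : ℤ))} := by
  have h : decode (0 ||| bit 528) = insert (cellOf 528) (decode 0) := decode_or_bit (by norm_num)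
  have h2 : (0 ||| bit 528) = 878694100496718043517683302282418331810487718418343092402491322775749527474899974671687634004666183037093927858109549828751614463963730408009475621262727315456 := by decide +kernel
  rw [h2] at h
  rw [h, decode_zero]
  have h3 : cellOf 528 = ((0 : ℤ), (0 : ℤ)) := by decide +kernel
  rw [h3]
  rfl

/-- Every Breaker reply outside the twelve near cells loses. -/
theorem far_replies (b : Cell) (h : b ∉ nearCells) : ForcedIn 12 {((0 : ℤ), (0 : ℤ))} {b} := by
  have hb : b ∉ decode 16209045204150247236995673129457940268870586640013389291146447842365789181893494106896160015876279573250995145768544734851185320156097426030737174815732405893125691398581945106432 := by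
    intro hm
    rw [mem_decode] at hm
    obtain ⟨i, hi, hbit, hc⟩ := hm
    apply h
    rw [← hc]
    exact far_inter_sub i hi hbit
  obtain ⟨z, hz, hbz, _⟩ := far_partial b hb
  have := hz {b} (by simpa using hbz)
  rwa [decode_origin] at this

end Vale.Agent.Snaky
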