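import Vale.Agent.Snaky.Data.F0
import Vale.Agent.Snaky.Data.F1
import Vale.Agent.Snaky.Data.F2
import Vale.Agent.Snaky.Data.F3
import Vale.Agent.Snaky.Data.F4
import Vale.Agent.Snaky.Data.F5
import Vale.Agent.Snaky.Data.F6
import Vale.Agent.Snaky.Data.F7
import Vale.Agent.Snaky.Data.F8
import Vale.Agent.Snaky.Data.F9
import Vale.Agent.Snaky.Data.F10
import Vale.Agent.Snaky.Data.F11
import Vale.Agent.Snaky.Data.F12
import Vale.Agent.Snaky.Data.F13
import Vale.Agent.Snaky.Data.F14
import Vale.Agent.Snaky.Data.F15
import Vale.Agent.Snaky.Data.F16
import Vale.Agent.Snaky.Data.F17
import Vale.Agent.Snaky.Data.F18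
import Vale.Agent.Snaky.Data.F19
import Vale.Agent.Snaky.Data.F20
import Vale.Agent.Snaky.Data.F21
import Vale.Agent.Snaky.Data.F22
import Vale.Agent.Snaky.Data.F23
import Vale.Agent.Snaky.Data.F24
import Vale.Agent.Snaky.Data.F25
import Vale.Agent.Snaky.Data.F26
import Vale.Agent.Snaky.Data.F27
import Vale.Agent.Snaky.Data.F28
import Vale.Agent.Snaky.Data.F29
import Vale.Agent.Snaky.Data.F30
import Vale.Agent.Snaky.Data.F31
import Vale.Agent.Snaky.Data.F32
import Vale.Agent.Snaky.Data.A20_0
import Vale.Agent.Snaky.Data.A20_1
import Vale.Agent.Snaky.Data.A20_4
import Vale.Agent.Snaky.Data.A20_6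
import Vale.Agent.Snaky.Mono

/-!
Combination of the certificates for the Breaker replies at the first turn.
-/

namespace Vale.Agent.Snaky

/-- The cells near the origin for which no certificate is combined here. -/
def nearCells2 : Finset Cell := {(-1, -1), (-1, 0), (-1, 1), (0, -1), (0, 1), (1, -1), (1, 0), (1, 1)}

lemma far2_partial : Partial 13 878694100496718043517683302282418331810487718418343092402491322775749527474899974671687634004666183037093927858109549828751614463963730408009475621262727315456 13208868489072129984803290337730430407980655347164798109909970229437833298011364787759722742764547330287520102896699811171227382929519575907140620769450554936345317343232 186555175604441100008931519277485740771701145558685020627947991560869253350851599557705788434407289366293899172611591738941198871142803213845442946082640942936170493180394604250057151195768664310175524598272698108941185537015808 := by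
  have h := Partial.add (Partial.add (Partial.add (Partial.add (Partial.add (Partial.add (Partial.add (Partial.add (Partial.add (Partial.add (Partial.add (Partial.add (Partial.add (Partial.add (Partial.add (Partial.add (Partial.add (Partial.add (Partial.add (Partial.add (Partial.add (Partial.add (Partial.add (Partial.add (Partial.add (Partial.add (Partial.add (Partial.add (Partial.add (Partial.add (Partial.add (Partial.add (Partial.add (Partial.add (Partial.add (Partial.add (Partial.one (Valid.mono (by norm_num) Data.F0.root)) (Valid.mono (by norm_num) Data.F1.root)) (Valid.mono (by norm_num) Data.F2.root)) (Valid.mono (by norm_num) Data.F3.root)) (Valid.mono (by norm_num) Data.F4.root)) (Valid.mono (by norm_num) Data.F5.root)) (Valid.mono (by norm_num) Data.F6.root)) (Valid.mono (by norm_num) Data.F7.root)) (Valid.mono (by norm_num) Data.F8.root)) (Valid.mono (by norm_num) Data.F9.root)) (Valid.mono (by norm_num) Data.F10.root)) (Valid.mono (by norm_num) Data.F11.root)) (Valid.mono (by norm_num) Data.F12.root)) (Valid.mono (by norm_num) Data.F13.root)) (Valid.mono (by norm_num) Data.F14.root)) (Valid.mono (by norm_num) Data.F15.root)) (Valid.mono (by norm_num)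 Data.F16.root)) (Valid.mono (by norm_num) Data.F17.root)) (Valid.mono (by norm_num) Data.F18.root)) (Valid.mono (by norm_num) Data.F19.root)) (Valid.mono (by norm_num) Data.F20.root)) (Valid.mono (by norm_num) Data.F21.root)) (Valid.mono (by norm_num) Data.F22.root)) (Valid.mono (by norm_num) Data.F23.root)) (Valid.mono (by norm_num) Data.F24.root)) (Valid.mono (by norm_num) Data.F25.root)) (Valid.mono (by norm_num) Data.F26.root)) (Valid.mono (by norm_num) Data.F27.root)) (Valid.mono (by norm_num) Data.F28.root)) (Valid.mono (by norm_num) Data.F29.root)) (Valid.mono (by norm_num) Data.F30.root)) (Valid.mono (by norm_num) Data.F31.root)) (Valid.mono (by norm_num) Data.F32.root)) (Data.A20_0.root)) (Data.A20_1.root)) (Data.A20_4.root)) (Data.A20_6.root)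
  exact h

lemma far2_inter_sub : ∀ i, i < 1024 → Nat.testBit 13208868489072129984803290337730430407980655347164798109909970229437833298011364787759722742764547330287520102896699811171227382929519575907140620769450554936345317343232 i = true → cellOf i ∈ nearCells2 := by
  decide +kernel

lemma decode_origin2 : decode 878694100496718043517683302282418331810487718418343092402491322775749527474899974671687634004666183037093927858109549828751614463963730408009475621262727315456 = {((0 : ℤ), (0 : ℤ))} := by
  have h := decode_origin_bit
  have h2 : bit 528 = 878694100496718043517683302282418331810487718418343092402491322775749527474899974671687634004666183037093927858109549828751614463963730408009475621262727315456 := by decide +kernel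
  rwa [h2] at h

/-- Every Breaker reply outside the near cells loses. -/
theorem far2_replies (b : Cell) (h : b ∉ nearCells2) : ForcedIn 13 {((0 : ℤ), (0 : ℤ))} {b} := by
  have hb : b ∉ decode 13208868489072129984803290337730430407980655347164798109909970229437833298011364787759722742764547330287520102896699811171227382929519575907140620769450554936345317343232 := by
    intro hm
    rw [mem_decode] at hm
    obtain ⟨i, hi, hbit, hc⟩ := hm
    apply h
    rw [← hc]
    exact far2_inter_sub i hi hbit
  obtain ⟨z, hz, hbz, _⟩ := far2_partial b hb
  have := hz {b} (by simpa using hbz)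
  rwa [decode_origin2] at this

end Vale.Agent.Snaky
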