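import Vale.Agent.Snaky.Data.F0
import Vale.Agent.Snaky.Data.F1
import Vale.Agent.Snaky.Data.F2
import Vale.Agent.Snaky.Data.F3
import Vale.Agent.Snaky.Data.F4
import Vale.Agent.Snaky.Data.F5
import Vale.Agent.Snaky.Data.F6
import Vale.Agent.Snaky.Data.F7
import Vale.Agent.Snaky.Data.F8
import Vale.Agent.Snaky.Data.F9
import Vale.Agent.Snaky.Data.F10
import Vale.Agent.Snaky.Data.F11
import Vale.Agent.Snaky.Data.F12
import Vale.Agent.Snaky.Data.F13
import Vale.Agent.Snaky.Data.F14
import Vale.Agent.Snaky.Data.F15
import Vale.Agent.Snaky.Data.F16
import Vale.Agent.Snaky.Data.F17
import Vale.Agent.Snaky.Data.F18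
import Vale.Agent.Snaky.Data.F19
import Vale.Agent.Snaky.Data.F20
import Vale.Agent.Snaky.Data.F21
import Vale.Agent.Snaky.Data.F22
import Vale.Agent.Snaky.Data.F23
import Vale.Agent.Snaky.Data.F24
import Vale.Agent.Snaky.Data.F25
import Vale.Agent.Snaky.Data.F26
import Vale.Agent.Snaky.Data.F27
import Vale.Agent.Snaky.Data.F28
import Vale.Agent.Snaky.Data.F29
import Vale.Agent.Snaky.Data.F30
import Vale.Agent.Snaky.Data.F31
import Vale.Agent.Snaky.Data.F32
import Vale.Agent.Snaky.Data.A20_0
import Vale.Agent.Snaky.Data.A20_1
import Vale.Agent.Snaky.Data.A20_4
import Vale.Agent.Snaky.Data.A20_6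
import Vale.Agent.Snaky.Data.A11_0
import Vale.Agent.Snaky.Data.A11_1
import Vale.Agent.Snaky.Data.A11_2
import Vale.Agent.Snaky.Data.A11_3
import Vale.Agent.Snaky.Mono

/-!
Combination of the certificates for the Breaker replies at the first turn.
-/

namespace Vale.Agent.Snaky

/-- The cells near the origin for which no certificate is combined here. -/
def nearCells3 : Finset Cell := {(-1, 0), (0, -1), (0, 1), (1, 0)}

lemma far3_partial : Partial 14 878694100496718043517683302282418331810487718418343092402491322775749527474899974671687634004666183037093927858109549828751614463963730408009475621262727315456 3773962427018276603687936602775986013498791405994384671435604159129544018674228381279385024132170012233338213393867674366974876959776333230546838805574222162639246589952 1081049398406901190016429881388053371312011565335180352669313795879149920812265398422579112417181650518758829335156861976362162165068324332423868400011613745247885977105693792411466138299413503155021706966027359934507033693551611137228800 := by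
  have h := Partial.add (Partial.add (Partial.add (Partial.add (Partial.add (Partial.add (Partial.add (Partial.add (Partial.add (Partial.add (Partial.add (Partial.add (Partial.add (Partial.add (Partial.add (Partial.add (Partial.add (Partial.add (Partial.add (Partial.add (Partial.add (Partial.add (Partial.add (Partial.add (Partial.add (Partial.add (Partial.add (Partial.add (Partial.add (Partial.add (Partial.add (Partial.add (Partial.add (Partial.add (Partial.add (Partial.add (Partial.add (Partial.add (Partial.add (Partial.add (Partial.one (Valid.mono (by norm_num) Data.F0.root)) (Valid.mono (by norm_num) Data.F1.root)) (Valid.mono (by norm_num) Data.F2.root)) (Valid.mono (by norm_num) Data.F3.root)) (Valid.mono (by norm_num) Data.F4.root)) (Valid.mono (by norm_num) Data.F5.root)) (Valid.mono (by norm_num) Data.F6.root)) (Valid.mono (by norm_num) Data.F7.root)) (Valid.mono (by norm_num) Data.F8.root)) (Valid.mono (by norm_num) Data.F9.root)) (Valid.mono (by norm_num) Data.F10.root)) (Valid.mono (by norm_num) Data.F11.root)) (Valid.mono (by norm_num) Data.F12.root)) (Valid.mono (by norm_num) Data.F13.root)) (Valid.mono (by norm_num) Data.F14.root)) (Valid.mono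 (by norm_num) Data.F15.root)) (Valid.mono (by norm_num) Data.F16.root)) (Valid.mono (by norm_num) Data.F17.root)) (Valid.mono (by norm_num) Data.F18.root)) (Valid.mono (by norm_num) Data.F19.root)) (Valid.mono (by norm_num) Data.F20.root)) (Valid.mono (by norm_num) Data.F21.root)) (Valid.mono (by norm_num) Data.F22.root)) (Valid.mono (by norm_num) Data.F23.root)) (Valid.mono (by norm_num) Data.F24.root)) (Valid.mono (by norm_num) Data.F25.root)) (Valid.mono (by norm_num) Data.F26.root)) (Valid.mono (by norm_num) Data.F27.root)) (Valid.mono (by norm_num) Data.F28.root)) (Valid.mono (by norm_num) Data.F29.root)) (Valid.mono (by norm_num) Data.F30.root)) (Valid.mono (by norm_num) Data.F31.root)) (Valid.mono (by norm_num) Data.F32.root)) (Valid.mono (by norm_num) Data.A20_0.root)) (Valid.mono (by norm_num) Data.A20_1.root)) (Valid.mono (by norm_num) Data.A20_4.root)) (Valid.mono (by norm_num) Data.A20_6.root)) (Data.A11_0.root)) (Data.A11_1.root)) (Data.A11_2.root)) (Data.A11_3.root)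
  exact h

lemma far3_inter_sub : ∀ i, i < 1024 → Nat.testBit 3773962427018276603687936602775986013498791405994384671435604159129544018674228381279385024132170012233338213393867674366974876959776333230546838805574222162639246589952 i = true → cellOf i ∈ nearCells3 := by
  decide +kernel

lemma decode_origin3 : decode 878694100496718043517683302282418331810487718418343092402491322775749527474899974671687634004666183037093927858109549828751614463963730408009475621262727315456 = {((0 : ℤ), (0 : ℤ))} := by
  have h := decode_origin_bit
  have h2 : bit 528 = 878694100496718043517683302282418331810487718418343092402491322775749527474899974671687634004666183037093927858109549828751614463963730408009475621262727315456 := by decide +kernel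
  rwa [h2] at h

/-- Every Breaker reply outside the near cells loses. -/
theorem far3_replies (b : Cell) (h : b ∉ nearCells3) : ForcedIn 14 {((0 : ℤ), (0 : ℤ))} {b} := by
  have hb : b ∉ decode 3773962427018276603687936602775986013498791405994384671435604159129544018674228381279385024132170012233338213393867674366974876959776333230546838805574222162639246589952 := by
    intro hm
    rw [mem_decode] at hm
    obtain ⟨i, hi, hbit, hc⟩ := hm
    apply h
    rw [← hc]
    exact far3_inter_sub i hi hbit
  obtain ⟨z, hz, hbz, _⟩ := far3_partial b hb
  have := hz {b} (by simpa using hbz)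
  rwa [decode_origin3] at this

end Vale.Agent.Snaky
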