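import Vale.Agent.Snaky.Check

/-!
A faster form of the certificate checker for kernel evaluation: the same stream format as in
`Vale.Agent.Snaky.Check`, written with many small definitions and primitive recursion, so that the
kernel instantiates only small terms at each step.
-/

namespace Vale.Agent.Snaky.Fast

/-- All eight normalized masks, in blocks of 256 bits. -/
def baseAll : ℕ := 35961131308290143716507967420584318173673526263234861021420183744243230318551224180752073194947717385271252065869146454983042357781800216576925618543727498242506924662402411100000500155992431896453690629571794925507404641290877341857930202375136695775371121250862441224103412727050838222159676941727657204235436650599398532408977402878973447825461751342885921106100989125791391022992766806708853802281995990637328738699694243584918266694627661407661001276775719617799654693659660155084436317732011628928737183104118330002027764950710797429351387234305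

/-- The normalized mask in orientation `o`. -/
def baseOf (o : ℕ) : ℕ :=
  Nat.mod (Nat.shiftRight baseAll (Nat.mul o 256)) 115792089237316195423570985008687907853269984665640564039457584007913129639936

/-- Is the mask `q` contained in `M'`? -/
def maskIn2 (q M' : ℕ) : Bool := Nat.beq (Nat.land q M') q

/-- Is the copy in orientation `o` with anchor `(X, Y)` contained in `M'`? -/
def maskIn (o X Y M' : ℕ) : Bool :=
  cond (Nat.ble (Nat.add X 5) 32)
    (cond (Nat.ble (Nat.add Y 5) 32)
      (maskIn2 (Nat.shiftLeft (baseOf o) (Nat.add (Nat.mul X 32) Y)) M') false) false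

/-- The check of a winning token `t`. -/
def wOk (t M' : ℕ) : Bool :=
  maskIn (Nat.mod (Nat.div t 2048) 8) (Nat.mod (Nat.div t 16384) 32) (Nat.mod (Nat.div t 524288) 32) M'

/-- The last step of a move token. -/
def fin3 (m inter uni s3 : ℕ) : Option (ℕ × ℕ) :=
  cond (Nat.beq inter 0) (some (Nat.lor uni (Nat.shiftLeft 1 m), s3)) none

/-- The loop over the children of a move. -/
noncomputable def runKids (r : ℕ → Option (ℕ × ℕ)) (m : ℕ) : ℕ → ℕ → ℕ → ℕ → Option (ℕ × ℕ) :=
  fun k => Nat.rec (fun s inter uni => fin3 m inter uni s)
    (fun _ ih s inter uni =>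
      Option.casesOn (r s) none (fun p =>
        Prod.casesOn p (fun z s' => ih s' (Nat.land inter z) (Nat.lor uni z)))) k

/-- A move token: read the first child, then the others. -/
noncomputable def stepM (ih : ℕ → ℕ → Option (ℕ × ℕ)) (t s' M' m : ℕ) : Option (ℕ × ℕ) :=
  Option.casesOn (ih s' M') none (fun p =>
    Prod.casesOn p (fun z s2 => runKids (fun x => ih x M') m (Nat.sub (Nat.div t 2048) 1) s2 z z))

/-- Dispatch on the kind of the token. -/
noncomputable def step2 (ih : ℕ → ℕ → Option (ℕ × ℕ)) (t s' M' m : ℕ) : Option (ℕ × ℕ) :=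
  cond (Nat.beq (Nat.mod t 2) 0)
    (cond (wOk t M') (some (Nat.shiftLeft 1 m, s')) none)
    (stepM ih t s' M' m)

/-- The claimed cell must not be held yet. -/
noncomputable def step1 (ih : ℕ → ℕ → Option (ℕ × ℕ)) (t s' M m : ℕ) : Option (ℕ × ℕ) :=
  cond (Nat.beq (Nat.land 1 (Nat.shiftRight M m)) 1) none
    (step2 ih t s' (Nat.lor M (Nat.shiftLeft 1 m)) m)

/-- The checker: reads one node from the stream `s`, with Maker holding the mask `M`; the result is
the zone of the node and the rest of the stream. -/
noncomputable def run : ℕ → ℕ → ℕ → Option (ℕ × ℕ) :=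
  fun fuel => Nat.rec (fun _ _ => none)
    (fun _ ih s M => step1 ih (Nat.mod s 16777216) (Nat.div s 16777216) M
      (Nat.mod (Nat.div (Nat.mod s 16777216) 2) 1024))
    fuel

/-- The Boolean check evaluated by the kernel. -/
noncomputable def check (fuel s M Z : ℕ) : Bool :=
  Option.casesOn (run fuel s M) false
    (fun p => Prod.casesOn p (fun z s' => and (Nat.beq z Z) (Nat.beq s' 0)))

lemma beq_land_shift (M m : ℕ) :
    Nat.beq (Nat.land 1 (Nat.shiftRight M m)) 1 = M.testBit m := by
  have h1 : Nat.land 1 (Nat.shiftRight M m) = 1 &&& (M >>> m) := rfl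
  rw [h1]
  have h2 : M.testBit m = ((1 &&& (M >>> m)) != 0) := rfl
  rw [h2]
  have h3 : (1 &&& (M >>> m)) = (M >>> m) % 2 := by
    rw [Nat.and_comm, Nat.and_one_is_mod]
  rw [h3]
  have h4 : (M >>> m) % 2 = 0 ∨ (M >>> m) % 2 = 1 := by omega
  rcases h4 with h4 | h4 <;> rw [h4] <;> rfl

lemma baseOf_eq {o : ℕ} (ho : o < 8) : baseOf o = base o := by
  interval_cases o <;> decide +kernel

lemma wOk_sound {t M' : ℕ} (h : wOk t M' = true) : OwnsCopy (decode M') := by
  unfold wOk maskIn at h
  set o := Nat.mod (Nat.div t 2048) 8 with ho
  set X := Nat.mod (Nat.div t 16384) 32 with hX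
  set Y := Nat.mod (Nat.div t 524288) 32 with hY
  have ho8 : o < 8 := Nat.mod_lt _ (by norm_num)
  cases h1 : Nat.ble (Nat.add X 5) 32 with
  | false => simp [h1] at h
  | true =>
    cases h2 : Nat.ble (Nat.add Y 5) 32 with
    | false => simp [h1, h2] at h
    | true =>
      simp only [h1, h2, cond_true] at h
      have hX5 : X + 5 ≤ 32 := Nat.le_of_ble_eq_true h1
      have hY5 : Y + 5 ≤ 32 := Nat.le_of_ble_eq_true h2
      unfold maskIn2 at h
      have h3 := Nat.eq_of_beq_eq_true h
      have hm : mask o X Y = Nat.shiftLeft (baseOf o) (Nat.add (Nat.mul X 32) Y) := by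
        rw [baseOf_eq ho8]; rfl
      rw [← hm] at h3
      exact copy_of_mask ho8 (by omega) (by omega) h3

/-- Closing a move from information on its children. -/
lemma close_of {k M m uni : ℕ} (hm1024 : m < 1024) (hbit : M.testBit m = false)
    (p : ∀ c, ∃ z, Valid k (M ||| bit m) z ∧ c ∉ decode z ∧ decode z ⊆ decode uni) :
    Valid (k + 1) M (uni ||| bit m) := by
  have hnotM : cellOf m ∉ decode M := by
    rw [cellOf_mem_decode_iff hm1024, hbit]; simp
  have hdec : decode (M ||| bit m) = insert (cellOf m) (decode M) := decode_or_bit hm1024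
  intro B hB
  rw [decode_or] at hB
  have hB1 := Finset.disjoint_union_left.mp hB
  have hmem : cellOf m ∈ decode (bit m) := by
    rw [cellOf_mem_decode_iff hm1024, testBit_bit]; simp
  refine ⟨cellOf m, hnotM, Finset.disjoint_left.mp hB1.2 hmem, Or.inr ?_⟩
  intro b hb1 hb2
  obtain ⟨z', hz1, hz2, hz3⟩ := p b
  rw [← hdec]
  apply hz1
  rw [Finset.disjoint_insert_right]
  exact ⟨hz2, Finset.disjoint_of_subset_left hz3 hB1.1⟩

lemma runKids_sound {r : ℕ → Option (ℕ × ℕ)} {V : ℕ → Prop} {m : ℕ}
    (hr : ∀ s z s', r s = some (z, s') → V z) :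
    ∀ (k s inter uni Z s' : ℕ), runKids r m k s inter uni = some (Z, s') →
      (∀ c, c ∉ decode inter → ∃ z, V z ∧ c ∉ decode z ∧ decode z ⊆ decode uni) →
      ∃ uni', Z = uni' ||| bit m ∧ ∀ c, ∃ z, V z ∧ c ∉ decode z ∧ decode z ⊆ decode uni' := by
  intro k
  induction k with
  | zero =>
    intro s inter uni Z s' h hp
    have h' : fin3 m inter uni s = some (Z, s') := h
    unfold fin3 at h'
    cases hi : Nat.beq inter 0 with
    | false => simp [hi] at h'
    | true =>
      simp only [hi, cond_true, Option.some.injEq, Prod.mk.injEq] at h'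
      obtain ⟨rfl, _⟩ := h'
      have hi0 : inter = 0 := Nat.eq_of_beq_eq_true hi
      subst hi0
      refine ⟨uni, rfl, fun c => hp c ?_⟩
      rw [decode_zero]; simp
  | succ k ih =>
    intro s inter uni Z s' h hp
    have h' : (Option.casesOn (r s) none (fun p =>
        Prod.casesOn p (fun z s' => runKids r m k s' (Nat.land inter z) (Nat.lor uni z))) :
          Option (ℕ × ℕ)) = some (Z, s') := h
    cases hs : r s with
    | none => rw [hs] at h'; exact absurd h' (by simp)
    | some p =>
      obtain ⟨z, s2⟩ := p
      rw [hs] at h'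
      have h'' : runKids r m k s2 (inter &&& z) (uni ||| z) = some (Z, s') := h'
      have hz := hr s z s2 hs
      have hsub : decode uni ⊆ decode (uni ||| z) := by
        rw [decode_or]; exact Finset.subset_union_left
      have hsub2 : decode z ⊆ decode (uni ||| z) := by
        rw [decode_or]; exact Finset.subset_union_right
      refine ih s2 _ _ _ _ h'' ?_
      intro c hc
      by_cases hcz : c ∈ decode z
      · have hci : c ∉ decode inter := fun hci => hc (decode_and_subset hci hcz)
        obtain ⟨z', h1, h2, h3⟩ := hp c hci
        exact ⟨z', h1, h2, h3.trans hsub⟩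
      · exact ⟨z, hz, hcz, hsub2⟩

lemma run_succ (fuel s M : ℕ) :
    run (fuel + 1) s M = step1 (run fuel) (Nat.mod s 16777216) (Nat.div s 16777216) M
      (Nat.mod (Nat.div (Nat.mod s 16777216) 2) 1024) := rfl

/-- Soundness of the checker. -/
theorem run_sound : ∀ (fuel s M Z s' : ℕ), run fuel s M = some (Z, s') → Valid fuel M Z := by
  intro fuel
  induction fuel with
  | zero =>
    intro s M Z s' h
    exact absurd h (by simp [run])
  | succ fuel ih =>
    intro s M Z s' h
    rw [run_succ] at h
    unfold step1 at h
    set t := Nat.mod s 16777216 with ht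
    set s1 := Nat.div s 16777216 with hs1
    set m := Nat.mod (Nat.div t 2) 1024 with hm
    have hm1024 : m < 1024 := Nat.mod_lt _ (by norm_num)
    rw [beq_land_shift] at h
    cases hbitM : M.testBit m with
    | true => simp [hbitM] at h
    | false =>
      simp only [hbitM, cond_false] at h
      have hnotM : cellOf m ∉ decode M := by
        rw [cellOf_mem_decode_iff hm1024, hbitM]; simp
      have hdec : decode (M ||| bit m) = insert (cellOf m) (decode M) := decode_or_bit hm1024
      unfold step2 at h
      have hM' : Nat.lor M (Nat.shiftLeft 1 m) = M ||| bit m := rfl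
      rw [hM'] at h
      cases htag : Nat.beq (Nat.mod t 2) 0 with
      | true =>
        simp only [htag, cond_true] at h
        cases hc : wOk t (M ||| bit m) with
        | false => simp [hc] at h
        | true =>
          simp only [hc, cond_true, Option.some.injEq, Prod.mk.injEq] at h
          obtain ⟨rfl, _⟩ := h
          have hcopy : OwnsCopy (decode (M ||| bit m)) := wOk_sound hc
          intro B hB
          have hmem : cellOf m ∈ decode (bit m) := by
            rw [cellOf_mem_decode_iff hm1024, testBit_bit]; simp
          refine ⟨cellOf m, hnotM, Finset.disjoint_left.mp hB hmem, Or.inl ?_⟩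
          rw [← hdec]; exact hcopy
      | false =>
        simp only [htag, cond_false] at h
        have h2 : (Option.casesOn (run fuel s1 (M ||| bit m)) none (fun p =>
            Prod.casesOn p (fun z s2 => runKids (fun x => run fuel x (M ||| bit m)) m
              (Nat.sub (Nat.div t 2048) 1) s2 z z)) : Option (ℕ × ℕ)) = some (Z, s') := h
        cases hfirst : run fuel s1 (M ||| bit m) with
        | none => rw [hfirst] at h2; exact absurd h2 (by simp)
        | some p =>
          obtain ⟨z, s2⟩ := p
          rw [hfirst] at h2
          have h3 : runKids (fun x => run fuel x (M ||| bit m)) m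
              (Nat.sub (Nat.div t 2048) 1) s2 z z = some (Z, s') := h2
          have hV : ∀ x z' s'', run fuel x (M ||| bit m) = some (z', s'') →
              Valid fuel (M ||| bit m) z' := fun x z' s'' hh => ih x _ z' s'' hh
          have hz := ih _ _ _ _ hfirst
          obtain ⟨uni', hZ, hcover⟩ := runKids_sound (V := Valid fuel (M ||| bit m)) hV _ _ _ _ _ _ h3
            (fun c hc => ⟨z, hz, hc, subset_rfl⟩)
          rw [hZ]
          exact close_of hm1024 hbitM hcover

/-- Soundness of the Boolean check. -/
theorem check_sound {fuel s M Z : ℕ} (h : check fuel s M Z = true) : Valid fuel M Z := by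
  unfold check at h
  cases hr : run fuel s M with
  | none => rw [hr] at h; exact absurd h (by simp)
  | some p =>
    obtain ⟨z, s'⟩ := p
    rw [hr] at h
    have h2 : and (Nat.beq z Z) (Nat.beq s' 0) = true := h
    rw [Bool.and_eq_true] at h2
    have h3 := Nat.eq_of_beq_eq_true h2.1
    have h4 := Nat.eq_of_beq_eq_true h2.2
    subst h3 h4
    exact run_sound _ _ _ _ _ hr

end Vale.Agent.Snaky.Fast
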