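import Vale.Agent.Snaky.Game

/-!
Positions from which Maker can force a win, and the passage to a strategy.
-/

namespace Vale.Agent.Snaky

/-- `ForcedIn k M B`: with Maker to move, holding `M` against Breaker holding `B`,
Maker can force a copy of Snaky within `k` of its moves. -/
def ForcedIn : ℕ → Finset Cell → Finset Cell → Prop
  | 0, _, _ => False
  | k + 1, M, B => ∃ m, m ∉ M ∧ m ∉ B ∧
      (OwnsCopy (insert m M) ∨
        ∀ b, b ∉ insert m M → b ∉ B → ForcedIn k (insert m M) (insert b B))

/-- A position together with the existence of a forced win. -/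
def Winnable (M B : Finset Cell) : Prop := ∃ k, ForcedIn k M B

open Classical in
/-- The least number of moves that forces a win. -/
noncomputable def rank (M B : Finset Cell) : ℕ :=
  if h : Winnable M B then Nat.find h else 0

lemma forcedIn_rank {M B : Finset Cell} (h : Winnable M B) : ForcedIn (rank M B) M B := by
  classical
  unfold rank
  rw [dif_pos h]
  exact Nat.find_spec h

lemma rank_le {M B : Finset Cell} {k : ℕ} (h : ForcedIn k M B) : rank M B ≤ k := by
  classical
  have hw : Winnable M B := ⟨k, h⟩
  unfold rank
  rw [dif_pos hw]
  exact Nat.find_min' hw h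

lemma forcedIn_zero {M B : Finset Cell} : ¬ ForcedIn 0 M B := fun h => h

open Classical in
/-- The move chosen at a winnable position. -/
noncomputable def pick (M B : Finset Cell) : Cell :=
  if h : ∃ m, m ∉ M ∧ m ∉ B ∧ (OwnsCopy (insert m M) ∨
      ∀ b, b ∉ insert m M → b ∉ B → ForcedIn (rank M B - 1) (insert m M) (insert b B))
  then h.choose else (0, 0)

lemma pick_spec {M B : Finset Cell} (h : Winnable M B) :
    pick M B ∉ M ∧ pick M B ∉ B ∧ (OwnsCopy (insert (pick M B) M) ∨
      ∀ b, b ∉ insert (pick M B) M → b ∉ B →
        ForcedIn (rank M B - 1) (insert (pick M B) M) (insert b B)) := by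
  classical
  have h1 := forcedIn_rank h
  have hpos : rank M B ≠ 0 := by
    intro h0
    rw [h0] at h1
    exact forcedIn_zero h1
  obtain ⟨r, hr⟩ : ∃ r, rank M B = r + 1 := ⟨rank M B - 1, by omega⟩
  rw [hr] at h1
  obtain ⟨m, hm1, hm2, hm3⟩ := h1
  have hex : ∃ m, m ∉ M ∧ m ∉ B ∧ (OwnsCopy (insert m M) ∨
      ∀ b, b ∉ insert m M → b ∉ B → ForcedIn (rank M B - 1) (insert m M) (insert b B)) := by
    refine ⟨m, hm1, hm2, ?_⟩
    rw [hr]
    simpa using hm3
  unfold pick
  rw [dif_pos hex]
  exact hex.choose_spec

/-- The position reached after a list of Breaker moves when Maker follows `pick`. -/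
noncomputable def stateOf (h : List Cell) : Finset Cell × Finset Cell :=
  h.foldl (fun st b => (insert (pick st.1 st.2) st.1, insert b st.2)) (∅, ∅)

/-- The strategy extracted from `pick`. -/
noncomputable def pickStrategy (h : List Cell) : Cell := pick (stateOf h).1 (stateOf h).2

lemma hist_succ (β : ℕ → Cell) (k : ℕ) :
    (List.range (k + 1)).map β = (List.range k).map β ++ [β k] := by
  rw [List.range_succ]; simp

lemma stateOf_succ (β : ℕ → Cell) (k : ℕ) :
    stateOf ((List.range (k + 1)).map β) =
      (insert (pickStrategy ((List.range k).map β)) (stateOf ((List.range k).map β)).1,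
        insert (β k) (stateOf ((List.range k).map β)).2) := by
  rw [hist_succ]
  unfold stateOf pickStrategy
  rw [List.foldl_append]
  rfl

lemma stateOf_eq (β : ℕ → Cell) (k : ℕ) :
    stateOf ((List.range k).map β) = (makerCells pickStrategy β k, breakerCells β k) := by
  induction k with
  | zero => simp [stateOf, makerCells, breakerCells]
  | succ k ih =>
    rw [stateOf_succ, ih]
    simp [makerCells, breakerCells, Finset.range_add_one, Finset.image_insert, makerMove]

lemma makerMove_eq (β : ℕ → Cell) (k : ℕ) :
    makerMove pickStrategy β k = pick (makerCells pickStrategy β k) (breakerCells β k) := by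
  show pick (stateOf ((List.range k).map β)).1 (stateOf ((List.range k).map β)).2 = _
  rw [stateOf_eq]

lemma makerCells_succ (σ : List Cell → Cell) (β : ℕ → Cell) (k : ℕ) :
    makerCells σ β (k + 1) = insert (makerMove σ β k) (makerCells σ β k) := by
  simp [makerCells, Finset.range_add_one, Finset.image_insert]

lemma breakerCells_succ (β : ℕ → Cell) (k : ℕ) :
    breakerCells β (k + 1) = insert (β k) (breakerCells β k) := by
  simp [breakerCells, Finset.range_add_one, Finset.image_insert]

/-- If the position reached after turn `t` is winnable with rank at most `r`, then the extracted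
strategy wins within `r` further turns. -/
lemma wins_from (β : ℕ → Cell) (hβ : LegalBreaker pickStrategy β) :
    ∀ (r t : ℕ), ForcedIn r (makerCells pickStrategy β t) (breakerCells β t) →
      (∀ k < t, makerMove pickStrategy β k ∉ makerCells pickStrategy β k ∧
        makerMove pickStrategy β k ∉ breakerCells β k) →
      ∃ n, n < t + r ∧
        (∀ k ≤ n, makerMove pickStrategy β k ∉ makerCells pickStrategy β k ∧
          makerMove pickStrategy β k ∉ breakerCells β k) ∧
        OwnsCopy (makerCells pickStrategy β (n + 1)) := by
  intro r
  induction r with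
  | zero =>
    intro t h _
    exact absurd h forcedIn_zero
  | succ r ih =>
    intro t h hlegal
    have hw : Winnable (makerCells pickStrategy β t) (breakerCells β t) := ⟨r + 1, h⟩
    obtain ⟨h1, h2, h3⟩ := pick_spec hw
    have hmv := makerMove_eq β t
    rw [← hmv] at h1 h2 h3
    have hlegal' : ∀ k ≤ t, makerMove pickStrategy β k ∉ makerCells pickStrategy β k ∧
        makerMove pickStrategy β k ∉ breakerCells β k := by
      intro k hk
      rcases Nat.lt_or_ge k t with hlt | hge
      · exact hlegal k hlt
      · have : k = t := le_antisymm hk hge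
        subst this
        exact ⟨h1, h2⟩
    rcases h3 with h4 | h4
    · refine ⟨t, by omega, hlegal', ?_⟩
      rw [makerCells_succ]
      exact h4
    · have hleg := hβ t
      rw [makerCells_succ] at hleg
      have h5 := h4 (β t) hleg.1 hleg.2
      have hrk : rank (makerCells pickStrategy β t) (breakerCells β t) - 1 ≤ r := by
        have := rank_le h
        omega
      -- monotonicity of `ForcedIn` is avoided by applying the induction hypothesis at the rank
      have hmono : ∀ {a b : ℕ}, a ≤ b → ∀ {M B : Finset Cell}, ForcedIn a M B → ForcedIn b M B := by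
        intro a b hab
        induction hab with
        | refl => exact fun h => h
        | step _ ih2 =>
          intro M B h
          have h' := ih2 h
          -- one more move of fuel
          have key : ∀ (c : ℕ) {M B : Finset Cell}, ForcedIn c M B → ForcedIn (c + 1) M B := by
            intro c
            induction c with
            | zero => intro M B h; exact absurd h forcedIn_zero
            | succ c ihc =>
              intro M B h
              obtain ⟨m, hm1, hm2, hm3⟩ := h
              refine ⟨m, hm1, hm2, ?_⟩
              rcases hm3 with hm3 | hm3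
              · exact Or.inl hm3
              · exact Or.inr (fun b hb1 hb2 => ihc (hm3 b hb1 hb2))
          exact key _ h'
      have h6 : ForcedIn r (makerCells pickStrategy β (t + 1)) (breakerCells β (t + 1)) := by
        rw [makerCells_succ, breakerCells_succ]
        exact hmono hrk h5
      obtain ⟨n, hn1, hn2, hn3⟩ := ih (t + 1) h6 (fun k hk => hlegal' k (by omega))
      exact ⟨n, by omega, hn2, hn3⟩

/-- A forced win from the empty board yields a winning strategy. -/
theorem strategy_of_forced {K : ℕ} (h : ForcedIn K ∅ ∅) : ∃ σ, WinsWithin σ K := by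
  refine ⟨pickStrategy, ?_⟩
  intro β hβ
  have h0 : ForcedIn K (makerCells pickStrategy β 0) (breakerCells β 0) := by
    simpa [makerCells, breakerCells] using h
  obtain ⟨n, hn1, hn2, hn3⟩ := wins_from β hβ K 0 h0 (fun k hk => absurd hk (Nat.not_lt_zero k))
  exact ⟨n, by omega, hn2, hn3⟩

end Vale.Agent.Snaky
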