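import Mathlib

/-!
The Snaky achievement game on the board `ℤ × ℤ`.
-/

namespace Vale.Agent.Snaky

/-- A cell of the square grid, indexed by its lower-left corner. -/
abbrev Cell := ℤ × ℤ

/-- The Snaky hexomino. -/
def snaky : Finset Cell := {(0, 0), (1, 0), (2, 0), (3, 0), (3, 1), (4, 1)}

/-- The map `c ↦ t + R c`, where `R` is the signed permutation matrix with entries `a`, `b`
on the diagonal (if `sw` is false) or on the antidiagonal (if `sw` is true). -/
def place (a b : ℤ) (sw : Bool) (t c : Cell) : Cell :=
  if sw then (t.1 + a * c.2, t.2 + b * c.1) else (t.1 + a * c.1, t.2 + b * c.2)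

/-- `A` is an allowed copy of Snaky: its image under a translation composed with one of the
eight signed permutation matrices. -/
def IsCopy (A : Finset Cell) : Prop :=
  ∃ (a b : ℤ) (sw : Bool) (t : Cell),
    (a = 1 ∨ a = -1) ∧ (b = 1 ∨ b = -1) ∧ A = snaky.image (place a b sw t)

/-- The set `M` of cells contains an allowed copy of Snaky. -/
def OwnsCopy (M : Finset Cell) : Prop := ∃ A, IsCopy A ∧ A ⊆ M

/-- The `k`-th move of Maker (`k = 0` is the first move) under the strategy `σ` when Breaker's
moves are given by `β`: a strategy maps the list of Breaker's moves so far to Maker's next move. -/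
def makerMove (σ : List Cell → Cell) (β : ℕ → Cell) (k : ℕ) : Cell :=
  σ ((List.range k).map β)

/-- The cells claimed by Maker in turns `0, …, k-1`. -/
def makerCells (σ : List Cell → Cell) (β : ℕ → Cell) (k : ℕ) : Finset Cell :=
  (Finset.range k).image (makerMove σ β)

/-- The cells claimed by Breaker in turns `0, …, k-1`. -/
def breakerCells (β : ℕ → Cell) (k : ℕ) : Finset Cell :=
  (Finset.range k).image β

/-- `β` is a legal sequence of Breaker moves against `σ`: in every turn `k`, after Maker's move
in turn `k`, Breaker claims a cell not claimed so far. -/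
def LegalBreaker (σ : List Cell → Cell) (β : ℕ → Cell) : Prop :=
  ∀ k, β k ∉ makerCells σ β (k + 1) ∧ β k ∉ breakerCells β k

/-- The strategy `σ` wins within `K` turns: against every legal Breaker play there is a turn
`n < K` such that all Maker moves up to turn `n` claim previously unclaimed cells and after
turn `n` Maker owns an allowed copy of Snaky. -/
def WinsWithin (σ : List Cell → Cell) (K : ℕ) : Prop :=
  ∀ β, LegalBreaker σ β → ∃ n, n < K ∧
    (∀ k ≤ n, makerMove σ β k ∉ makerCells σ β k ∧ makerMove σ β k ∉ breakerCells β k) ∧
    OwnsCopy (makerCells σ β (n + 1))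

end Vale.Agent.Snaky
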