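import Vale.Agent.Snaky.Data.L30
import Vale.Agent.Snaky.Data.L31
import Vale.Agent.Snaky.Data.L32
import Vale.Agent.Snaky.Data.L33
import Vale.Agent.Snaky.Data.L34
import Vale.Agent.Snaky.Data.L35
import Vale.Agent.Snaky.Data.L36
import Vale.Agent.Snaky.Data.L37
import Vale.Agent.Snaky.Data.L38
import Vale.Agent.Snaky.Data.L39
import Vale.Agent.Snaky.Data.L310
import Vale.Agent.Snaky.Data.L311
import Vale.Agent.Snaky.Data.L312
import Vale.Agent.Snaky.Data.L313
import Vale.Agent.Snaky.Data.L314
import Vale.Agent.Snaky.Data.L315
import Vale.Agent.Snaky.Data.L316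
import Vale.Agent.Snaky.Data.L317
import Vale.Agent.Snaky.Data.L318
import Vale.Agent.Snaky.Data.L319
import Vale.Agent.Snaky.Data.L320
import Vale.Agent.Snaky.Mono

/-!
Breaker replies in the line `(0,0), (1,0), (0,1), (0,2), (0,-2), (0,-1), (-1,-2)`.
-/

namespace Vale.Agent.Snaky

lemma line3_partial : Partial 13 2855755826665480369680847949136815667397016321613000082277519686356862391919927008251807850435216190063147517994338641382935873117401143459560255035562122018816 11908525658859223294760121268437066290850060053501019099651935423375594096449911575776314174894302258147533153997065059263030913083222523904 110313045299221721636498450950823484469126968264083884024211596121576817419762712037154415358780707891320484513721325176929371558237835367233859857818195037893290342902036832617699971900633317262725098418283549823074304 := by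
  have h := Partial.add (Partial.add (Partial.add (Partial.add (Partial.add (Partial.add (Partial.add (Partial.add (Partial.add (Partial.add (Partial.add (Partial.add (Partial.add (Partial.add (Partial.add (Partial.add (Partial.add (Partial.add (Partial.add (Partial.add (Partial.one (Valid.mono (by norm_num) Data.L30.root)) (Valid.mono (by norm_num) Data.L31.root)) (Valid.mono (by norm_num) Data.L32.root)) (Valid.mono (by norm_num) Data.L33.root)) (Valid.mono (by norm_num) Data.L34.root)) (Valid.mono (by norm_num) Data.L35.root)) (Valid.mono (by norm_num) Data.L36.root)) (Valid.mono (by norm_num) Data.L37.root)) (Valid.mono (by norm_num) Data.L38.root)) (Valid.mono (by norm_num) Data.L39.root)) (Valid.mono (by norm_num) Data.L310.root)) (Data.L311.root)) (Valid.mono (by norm_num) Data.L312.root)) (Valid.mono (by norm_num) Data.L313.root)) (Valid.mono (by norm_num) Data.L314.root)) (Valid.mono (by norm_num) Data.L315.root)) (Valid.mono (by norm_num) Data.L316.root)) (Data.L317.root)) (Valid.mono (by norm_num) Data.L318.root)) (Valid.mono (by norm_num) Data.L319.root)) (Valid.mono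 (by norm_num) Data.L320.root)
  exact h

lemma line3_inter_sub : ∀ i, i < 1024 → Nat.testBit 11908525658859223294760121268437066290850060053501019099651935423375594096449911575776314174894302258147533153997065059263030913083222523904 i = true → cellOf i = ((-2 : ℤ), (-2 : ℤ)) := by
  decide +kernel

lemma line3_uni_free : ∀ i, i < 1024 → Nat.testBit 110313045299221721636498450950823484469126968264083884024211596121576817419762712037154415358780707891320484513721325176929371558237835367233859857818195037893290342902036832617699971900633317262725098418283549823074304 i = true →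
    cellOf i ≠ ((1 : ℤ), (0 : ℤ)) ∧ cellOf i ≠ ((0 : ℤ), (2 : ℤ)) ∧ cellOf i ≠ ((0 : ℤ), (-1 : ℤ)) := by
  decide +kernel

lemma decode_line3 : decode 2855755826665480369680847949136815667397016321613000082277519686356862391919927008251807850435216190063147517994338641382935873117401143459560255035562122018816 = {((0 : ℤ), (0 : ℤ)), ((0 : ℤ), (1 : ℤ)), ((0 : ℤ), (-2 : ℤ)), ((-1 : ℤ), (-2 : ℤ))} := by
  ext c
  rw [mem_decode]
  constructor
  · rintro ⟨i, hi, hbit, rfl⟩
    have h : ∀ i, i < 1024 → Nat.testBit 2855755826665480369680847949136815667397016321613000082277519686356862391919927008251807850435216190063147517994338641382935873117401143459560255035562122018816 i = true →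
        cellOf i = ((0 : ℤ), (0 : ℤ)) ∨ cellOf i = ((0 : ℤ), (1 : ℤ)) ∨ cellOf i = ((0 : ℤ), (-2 : ℤ)) ∨ cellOf i = ((-1 : ℤ), (-2 : ℤ)) := by
      decide +kernel
    simpa using h i hi hbit
  · intro h
    simp only [Finset.mem_insert, Finset.mem_singleton] at h
    rcases h with rfl | rfl | rfl | rfl
    · exact ⟨528, by norm_num, by decide +kernel, by decide +kernel⟩
    · exact ⟨529, by norm_num, by decide +kernel, by decide +kernel⟩
    · exact ⟨526, by norm_num, by decide +kernel, by decide +kernel⟩
    · exact ⟨494, by norm_num, by decide +kernel, by decide +kernel⟩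

/-- Every Breaker reply other than `(-2,-2)` loses in this line. -/
theorem line3_replies (r : Cell) (h : r ≠ ((-2 : ℤ), (-2 : ℤ))) :
    ForcedIn 13 {((0 : ℤ), (0 : ℤ)), ((0 : ℤ), (1 : ℤ)), ((0 : ℤ), (-2 : ℤ)), ((-1 : ℤ), (-2 : ℤ))}
      {((1 : ℤ), (0 : ℤ)), ((0 : ℤ), (2 : ℤ)), ((0 : ℤ), (-1 : ℤ)), r} := by
  have hb : r ∉ decode 11908525658859223294760121268437066290850060053501019099651935423375594096449911575776314174894302258147533153997065059263030913083222523904 := by
    intro hm
    rw [mem_decode] at hm
    obtain ⟨i, hi, hbit, hc⟩ := hm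
    apply h
    rw [← hc]
    exact line3_inter_sub i hi hbit
  obtain ⟨z, hz, hbz, hsub⟩ := line3_partial r hb
  have h10 : ((1 : ℤ), (0 : ℤ)) ∉ decode z := by
    intro hm
    have hm2 := hsub hm
    rw [mem_decode] at hm2
    obtain ⟨i, hi, hbit, hc⟩ := hm2
    exact (line3_uni_free i hi hbit).1 hc
  have h02 : ((0 : ℤ), (2 : ℤ)) ∉ decode z := by
    intro hm
    have hm2 := hsub hm
    rw [mem_decode] at hm2
    obtain ⟨i, hi, hbit, hc⟩ := hm2
    exact (line3_uni_free i hi hbit).2.1 hc
  have h01 : ((0 : ℤ), (-1 : ℤ)) ∉ decode z := by
    intro hm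
    have hm2 := hsub hm
    rw [mem_decode] at hm2
    obtain ⟨i, hi, hbit, hc⟩ := hm2
    exact (line3_uni_free i hi hbit).2.2 hc
  have hd : Disjoint (decode z) ({((1 : ℤ), (0 : ℤ)), ((0 : ℤ), (2 : ℤ)), ((0 : ℤ), (-1 : ℤ)), r} : Finset Cell) := by
    rw [Finset.disjoint_left]
    intro c hc hc2
    simp only [Finset.mem_insert, Finset.mem_singleton] at hc2
    rcases hc2 with rfl | rfl | rfl | rfl
    · exact h10 hc
    · exact h02 hc
    · exact h01 hc
    · exact hbz hc
  have := hz _ hd
  rwa [decode_line3] at this

end Vale.Agent.Snaky
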