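import Vale.Agent.Snaky.Data.L40
import Vale.Agent.Snaky.Data.L41
import Vale.Agent.Snaky.Data.L42
import Vale.Agent.Snaky.Data.L43
import Vale.Agent.Snaky.Data.L44
import Vale.Agent.Snaky.Data.L45
import Vale.Agent.Snaky.Data.L46
import Vale.Agent.Snaky.Data.L47
import Vale.Agent.Snaky.Data.L48
import Vale.Agent.Snaky.Data.L49
import Vale.Agent.Snaky.Data.L410
import Vale.Agent.Snaky.Mono

/-!
Breaker replies in the line `(0,0), (1,0), (0,1), (0,2), (0,-2), (0,-1), (-1,-2), (-2,-2), (2,-2)`.
-/

namespace Vale.Agent.Snaky

lemma line4_partial : Partial 11 4052261297735344688903029131051379931216439972811070452549025432639028218422937798075326306907333057361376099079064616999080282716420453207044149322590561122705940390446408663040 943490606205385338060388645247067222729230305104110107094051575061406040598037213021531681294414691885367093757690961224942646157481198158140358562858174010912348831744 7402983195868923657059903192134590235580134264430213240155564818463866686977748412436462366348299503429567203191283368799578260022934551256746360537970838590931785927647804617666484922875799622038543791485615636526643210616832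 := by
  have h := Partial.add (Partial.add (Partial.add (Partial.add (Partial.add (Partial.add (Partial.add (Partial.add (Partial.add (Partial.add (Partial.one (Valid.mono (by norm_num) Data.L40.root)) (Valid.mono (by norm_num) Data.L41.root)) (Valid.mono (by norm_num) Data.L42.root)) (Valid.mono (by norm_num) Data.L43.root)) (Valid.mono (by norm_num) Data.L44.root)) (Valid.mono (by norm_num) Data.L45.root)) (Valid.mono (by norm_num) Data.L46.root)) (Valid.mono (by norm_num) Data.L47.root)) (Valid.mono (by norm_num) Data.L48.root)) (Valid.mono (by norm_num) Data.L49.root)) (Data.L410.root)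
  exact h

lemma line4_inter_sub : ∀ i, i < 1024 → Nat.testBit 943490606205385338060388645247067222729230305104110107094051575061406040598037213021531681294414691885367093757690961224942646157481198158140358562858174010912348831744 i = true → cellOf i = ((1 : ℤ), (-2 : ℤ)) := by
  decide +kernel

lemma line4_uni_free : ∀ i, i < 1024 → Nat.testBit 7402983195868923657059903192134590235580134264430213240155564818463866686977748412436462366348299503429567203191283368799578260022934551256746360537970838590931785927647804617666484922875799622038543791485615636526643210616832 i = true →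
    cellOf i ≠ ((1 : ℤ), (0 : ℤ)) ∧ cellOf i ≠ ((0 : ℤ), (2 : ℤ)) ∧ cellOf i ≠ ((0 : ℤ), (-1 : ℤ)) ∧ cellOf i ≠ ((-2 : ℤ), (-2 : ℤ)) := by
  decide +kernel

lemma decode_line4 : decode 4052261297735344688903029131051379931216439972811070452549025432639028218422937798075326306907333057361376099079064616999080282716420453207044149322590561122705940390446408663040 = {((0 : ℤ), (0 : ℤ)), ((0 : ℤ), (1 : ℤ)), ((0 : ℤ), (-2 : ℤ)), ((-1 : ℤ), (-2 : ℤ)), ((2 : ℤ), (-2 : ℤ))} := by
  ext c
  rw [mem_decode]
  constructor
  · rintro ⟨i, hi, hbit, rfl⟩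
    have h : ∀ i, i < 1024 → Nat.testBit 4052261297735344688903029131051379931216439972811070452549025432639028218422937798075326306907333057361376099079064616999080282716420453207044149322590561122705940390446408663040 i = true →
        cellOf i = ((0 : ℤ), (0 : ℤ)) ∨ cellOf i = ((0 : ℤ), (1 : ℤ)) ∨ cellOf i = ((0 : ℤ), (-2 : ℤ)) ∨ cellOf i = ((-1 : ℤ), (-2 : ℤ)) ∨ cellOf i = ((2 : ℤ), (-2 : ℤ)) := by
      decide +kernel
    simpa using h i hi hbit
  · intro h
    simp only [Finset.mem_insert, Finset.mem_singleton] at h
    rcases h with rfl | rfl | rfl | rfl | rfl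
    · exact ⟨528, by norm_num, by decide +kernel, by decide +kernel⟩
    · exact ⟨529, by norm_num, by decide +kernel, by decide +kernel⟩
    · exact ⟨526, by norm_num, by decide +kernel, by decide +kernel⟩
    · exact ⟨494, by norm_num, by decide +kernel, by decide +kernel⟩
    · exact ⟨590, by norm_num, by decide +kernel, by decide +kernel⟩

/-- Every Breaker reply other than `(1,-2)` loses in this line. -/
theorem line4_replies (r : Cell) (h : r ≠ ((1 : ℤ), (-2 : ℤ))) :
    ForcedIn 11 {((0 : ℤ), (0 : ℤ)), ((0 : ℤ), (1 : ℤ)), ((0 : ℤ), (-2 : ℤ)), ((-1 : ℤ), (-2 : ℤ)), ((2 : ℤ), (-2 : ℤ))}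
      {((1 : ℤ), (0 : ℤ)), ((0 : ℤ), (2 : ℤ)), ((0 : ℤ), (-1 : ℤ)), ((-2 : ℤ), (-2 : ℤ)), r} := by
  have hb : r ∉ decode 943490606205385338060388645247067222729230305104110107094051575061406040598037213021531681294414691885367093757690961224942646157481198158140358562858174010912348831744 := by
    intro hm
    rw [mem_decode] at hm
    obtain ⟨i, hi, hbit, hc⟩ := hm
    apply h
    rw [← hc]
    exact line4_inter_sub i hi hbit
  obtain ⟨z, hz, hbz, hsub⟩ := line4_partial r hb
  have h10 : ((1 : ℤ), (0 : ℤ)) ∉ decode z := by
    intro hm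
    have hm2 := hsub hm
    rw [mem_decode] at hm2
    obtain ⟨i, hi, hbit, hc⟩ := hm2
    exact (line4_uni_free i hi hbit).1 hc
  have h02 : ((0 : ℤ), (2 : ℤ)) ∉ decode z := by
    intro hm
    have hm2 := hsub hm
    rw [mem_decode] at hm2
    obtain ⟨i, hi, hbit, hc⟩ := hm2
    exact (line4_uni_free i hi hbit).2.1 hc
  have h01 : ((0 : ℤ), (-1 : ℤ)) ∉ decode z := by
    intro hm
    have hm2 := hsub hm
    rw [mem_decode] at hm2
    obtain ⟨i, hi, hbit, hc⟩ := hm2
    exact (line4_uni_free i hi hbit).2.2.1 hc
  have h22 : ((-2 : ℤ), (-2 : ℤ)) ∉ decode z := by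
    intro hm
    have hm2 := hsub hm
    rw [mem_decode] at hm2
    obtain ⟨i, hi, hbit, hc⟩ := hm2
    exact (line4_uni_free i hi hbit).2.2.2 hc
  have hd : Disjoint (decode z) ({((1 : ℤ), (0 : ℤ)), ((0 : ℤ), (2 : ℤ)), ((0 : ℤ), (-1 : ℤ)), ((-2 : ℤ), (-2 : ℤ)), r} : Finset Cell) := by
    rw [Finset.disjoint_left]
    intro c hc hc2
    simp only [Finset.mem_insert, Finset.mem_singleton] at hc2
    rcases hc2 with rfl | rfl | rfl | rfl | rfl
    · exact h10 hc
    · exact h02 hc
    · exact h01 hc
    · exact h22 hc
    · exact hbz hc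
  have := hz _ hd
  rwa [decode_line4] at this

end Vale.Agent.Snaky
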