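import Vale.Agent.Snaky.Forced
import Vale.Agent.Snaky.Mono

/-!
Invariance of forced wins under the symmetries of the board that fix the origin.
-/

namespace Vale.Agent.Snaky

/-- The map `c ↦ R c` for a signed permutation matrix `R`. -/
def sym (a b : ℤ) (sw : Bool) (c : Cell) : Cell := place a b sw (0, 0) c

lemma sym_inv {a b : ℤ} (ha : a = 1 ∨ a = -1) (hb : b = 1 ∨ b = -1) (sw : Bool) (c : Cell) :
    sym (if sw then b else a) (if sw then a else b) sw (sym a b sw c) = c := by
  rcases ha with rfl | rfl <;> rcases hb with rfl | rfl <;> cases sw <;>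
    simp [sym, place]

lemma sym_inv' {a b : ℤ} (ha : a = 1 ∨ a = -1) (hb : b = 1 ∨ b = -1) (sw : Bool) (c : Cell) :
    sym a b sw (sym (if sw then b else a) (if sw then a else b) sw c) = c := by
  rcases ha with rfl | rfl <;> rcases hb with rfl | rfl <;> cases sw <;>
    simp [sym, place]

lemma sym_injective {a b : ℤ} (ha : a = 1 ∨ a = -1) (hb : b = 1 ∨ b = -1) (sw : Bool) :
    Function.Injective (sym a b sw) := by
  intro x y h
  have := congrArg (sym (if sw then b else a) (if sw then a else b) sw) h
  rwa [sym_inv ha hb, sym_inv ha hb] at this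

lemma isCopy_sym {a b : ℤ} (ha : a = 1 ∨ a = -1) (hb : b = 1 ∨ b = -1) (sw : Bool)
    {A : Finset Cell} (hA : IsCopy A) : IsCopy (A.image (sym a b sw)) := by
  obtain ⟨a1, b1, sw1, t, ha1, hb1, rfl⟩ := hA
  rw [Finset.image_image]
  cases sw <;> cases sw1
  · refine ⟨a * a1, b * b1, false, sym a b false t, ?_, ?_, ?_⟩
    · rcases ha with rfl | rfl <;> rcases ha1 with rfl | rfl <;> simp
    · rcases hb with rfl | rfl <;> rcases hb1 with rfl | rfl <;> simp
    · apply Finset.image_congr
      intro c _
      simp only [Function.comp, sym, place]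
      simp
      constructor <;> ring
  · refine ⟨a * a1, b * b1, true, sym a b false t, ?_, ?_, ?_⟩
    · rcases ha with rfl | rfl <;> rcases ha1 with rfl | rfl <;> simp
    · rcases hb with rfl | rfl <;> rcases hb1 with rfl | rfl <;> simp
    · apply Finset.image_congr
      intro c _
      simp only [Function.comp, sym, place]
      simp
      constructor <;> ring
  · refine ⟨a * b1, b * a1, true, sym a b true t, ?_, ?_, ?_⟩
    · rcases ha with rfl | rfl <;> rcases hb1 with rfl | rfl <;> simp
    · rcases hb with rfl | rfl <;> rcases ha1 with rfl | rfl <;> simp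
    · apply Finset.image_congr
      intro c _
      simp only [Function.comp, sym, place]
      simp
      constructor <;> ring
  · refine ⟨a * b1, b * a1, false, sym a b true t, ?_, ?_, ?_⟩
    · rcases ha with rfl | rfl <;> rcases hb1 with rfl | rfl <;> simp
    · rcases hb with rfl | rfl <;> rcases ha1 with rfl | rfl <;> simp
    · apply Finset.image_congr
      intro c _
      simp only [Function.comp, sym, place]
      simp
      constructor <;> ring

lemma ownsCopy_sym {a b : ℤ} (ha : a = 1 ∨ a = -1) (hb : b = 1 ∨ b = -1) (sw : Bool)
    {M : Finset Cell} (h : OwnsCopy M) : OwnsCopy (M.image (sym a b sw)) := by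
  obtain ⟨A, hA, hs⟩ := h
  exact ⟨_, isCopy_sym ha hb sw hA, Finset.image_subset_image hs⟩

/-- Forced wins are preserved by the symmetries of the board. -/
theorem forcedIn_sym {a b : ℤ} (ha : a = 1 ∨ a = -1) (hb : b = 1 ∨ b = -1) (sw : Bool) :
    ∀ (k : ℕ) (M B : Finset Cell), ForcedIn k M B →
      ForcedIn k (M.image (sym a b sw)) (B.image (sym a b sw)) := by
  intro k
  induction k with
  | zero => intro M B h; exact absurd h forcedIn_zero
  | succ k ih =>
    intro M B h
    obtain ⟨m, hm1, hm2, hm3⟩ := h
    have hinj := sym_injective ha hb sw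
    refine ⟨sym a b sw m, ?_, ?_, ?_⟩
    · intro hc
      rw [Finset.mem_image] at hc
      obtain ⟨x, hx, hxe⟩ := hc
      exact hm1 (hinj hxe ▸ hx)
    · intro hc
      rw [Finset.mem_image] at hc
      obtain ⟨x, hx, hxe⟩ := hc
      exact hm2 (hinj hxe ▸ hx)
    · rcases hm3 with h4 | h4
      · left
        have := ownsCopy_sym ha hb sw h4
        rwa [Finset.image_insert] at this
      · right
        intro b' hb1 hb2
        -- pull the reply back
        set c := sym (if sw then b else a) (if sw then a else b) sw b' with hc
        have hcb : sym a b sw c = b' := sym_inv' ha hb sw b'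
        have hc1 : c ∉ insert m M := by
          intro hmem
          apply hb1
          rw [← hcb, ← Finset.image_insert]
          exact Finset.mem_image_of_mem _ hmem
        have hc2 : c ∉ B := by
          intro hmem
          apply hb2
          rw [← hcb]
          exact Finset.mem_image_of_mem _ hmem
        have h5 := ih _ _ (h4 c hc1 hc2)
        rw [Finset.image_insert, Finset.image_insert, hcb] at h5
        exact h5

end Vale.Agent.Snaky
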