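import Vale.Agent.Snaky.Far3
import Vale.Agent.Snaky.Line1
import Vale.Agent.Snaky.Line2
import Vale.Agent.Snaky.Symm

/-!
Reduction of the whole game to a single position.
-/

namespace Vale.Agent.Snaky

/-- The position left open by the certificates `Far3`, `Line1`, `Line2`: Maker's cells. -/
def openM : Finset Cell := {((0 : ℤ), (0 : ℤ)), ((0 : ℤ), (1 : ℤ)), ((0 : ℤ), (-2 : ℤ))}

/-- The position left open by the certificates `Far3`, `Line1`, `Line2`: Breaker's cells. -/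
def openB : Finset Cell := {((1 : ℤ), (0 : ℤ)), ((0 : ℤ), (2 : ℤ)), ((0 : ℤ), (-1 : ℤ))}

theorem forced_line2 {K : ℕ} (hK : 13 ≤ K) (h : ForcedIn K openM openB) :
    ForcedIn (K + 1) {((0 : ℤ), (0 : ℤ)), ((0 : ℤ), (1 : ℤ))} {((1 : ℤ), (0 : ℤ)), ((0 : ℤ), (2 : ℤ))} := by
  refine ⟨((0 : ℤ), (-2 : ℤ)), by decide, by decide, Or.inr ?_⟩
  intro b _ _
  have hM : insert ((0 : ℤ), (-2 : ℤ)) ({((0 : ℤ), (0 : ℤ)), ((0 : ℤ), (1 : ℤ))} : Finset Cell) = openM := by
    ext c; simp only [openM, Finset.mem_insert, Finset.mem_singleton]; tauto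
  rw [hM]
  by_cases hb : b = ((0 : ℤ), (-1 : ℤ))
  · subst hb
    have hB : insert ((0 : ℤ), (-1 : ℤ)) ({((1 : ℤ), (0 : ℤ)), ((0 : ℤ), (2 : ℤ))} : Finset Cell) = openB := by
      ext c; simp only [openB, Finset.mem_insert, Finset.mem_singleton]; tauto
    rw [hB]
    exact h
  · have hB : insert b ({((1 : ℤ), (0 : ℤ)), ((0 : ℤ), (2 : ℤ))} : Finset Cell) =
        {((1 : ℤ), (0 : ℤ)), ((0 : ℤ), (2 : ℤ)), b} := by
      ext c; simp only [Finset.mem_insert, Finset.mem_singleton]; tauto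
    rw [hB]
    exact ForcedIn.mono hK (line2_replies b hb)

theorem forced_line1 {K : ℕ} (hK : 13 ≤ K) (h : ForcedIn K openM openB) :
    ForcedIn (K + 2) {((0 : ℤ), (0 : ℤ))} {((1 : ℤ), (0 : ℤ))} := by
  refine ⟨((0 : ℤ), (1 : ℤ)), by decide, by decide, Or.inr ?_⟩
  intro b _ _
  have hM : insert ((0 : ℤ), (1 : ℤ)) ({((0 : ℤ), (0 : ℤ))} : Finset Cell) =
      {((0 : ℤ), (0 : ℤ)), ((0 : ℤ), (1 : ℤ))} := by
    ext c; simp only [Finset.mem_insert, Finset.mem_singleton]; tauto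
  have hB : insert b ({((1 : ℤ), (0 : ℤ))} : Finset Cell) = {((1 : ℤ), (0 : ℤ)), b} := by
    ext c; simp only [Finset.mem_insert, Finset.mem_singleton]; tauto
  rw [hM, hB]
  by_cases hb : b = ((0 : ℤ), (2 : ℤ))
  · subst hb
    exact forced_line2 hK h
  · exact ForcedIn.mono (by omega) (line1_replies b hb)

/-- The image of the origin under a symmetry. -/
lemma image_sym_origin (a b : ℤ) (sw : Bool) :
    ({((0 : ℤ), (0 : ℤ))} : Finset Cell).image (sym a b sw) = {((0 : ℤ), (0 : ℤ))} := by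
  rw [Finset.image_singleton]
  cases sw <;> simp [sym, place]

theorem forced_adjacent {K : ℕ} (h : ForcedIn K {((0 : ℤ), (0 : ℤ))} {((1 : ℤ), (0 : ℤ))}) :
    ForcedIn K {((0 : ℤ), (0 : ℤ))} {((-1 : ℤ), (0 : ℤ))} ∧
    ForcedIn K {((0 : ℤ), (0 : ℤ))} {((0 : ℤ), (1 : ℤ))} ∧
    ForcedIn K {((0 : ℤ), (0 : ℤ))} {((0 : ℤ), (-1 : ℤ))} := by
  refine ⟨?_, ?_, ?_⟩
  · have := forcedIn_sym (a := -1) (b := 1) (Or.inr rfl) (Or.inl rfl) false K _ _ h
    rw [image_sym_origin, Finset.image_singleton] at this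
    simpa [sym, place] using this
  · have := forcedIn_sym (a := 1) (b := 1) (Or.inl rfl) (Or.inl rfl) true K _ _ h
    rw [image_sym_origin, Finset.image_singleton] at this
    simpa [sym, place] using this
  · have := forcedIn_sym (a := 1) (b := -1) (Or.inl rfl) (Or.inr rfl) true K _ _ h
    rw [image_sym_origin, Finset.image_singleton] at this
    simpa [sym, place] using this

/-- A forced win in the open position gives a forced win from the empty board. -/
theorem forced_root {K : ℕ} (hK : 13 ≤ K) (h : ForcedIn K openM openB) :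
    ForcedIn (K + 3) ∅ ∅ := by
  have h1 := forced_line1 hK h
  obtain ⟨h2, h3, h4⟩ := forced_adjacent h1
  refine ⟨((0 : ℤ), (0 : ℤ)), by simp, by simp, Or.inr ?_⟩
  intro b hb0 _
  have hM : insert ((0 : ℤ), (0 : ℤ)) (∅ : Finset Cell) = {((0 : ℤ), (0 : ℤ))} := rfl
  have hB : insert b (∅ : Finset Cell) = {b} := rfl
  rw [hM, hB]
  have hb1 : b ≠ ((0 : ℤ), (0 : ℤ)) := by
    intro hc; apply hb0; rw [hc]; simp
  by_cases hnear : b ∈ nearCells3
  · simp only [nearCells3, Finset.mem_insert, Finset.mem_singleton] at hnear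
    rcases hnear with rfl | rfl | rfl | rfl
    · exact h2
    · exact h4
    · exact h3
    · exact h1
  · exact ForcedIn.mono (by omega) (far3_replies b hnear)

end Vale.Agent.Snaky
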