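import Vale.Agent.Snaky.Reduce
import Vale.Agent.Snaky.Line3
import Vale.Agent.Snaky.Line4

/-!
Reduction of the whole game to one position with five Maker cells and five Breaker cells.
-/

namespace Vale.Agent.Snaky

/-- Maker's cells in the position with four cells each. -/
def deepM : Finset Cell :=
  {((0 : ℤ), (0 : ℤ)), ((0 : ℤ), (1 : ℤ)), ((0 : ℤ), (-2 : ℤ)), ((-1 : ℤ), (-2 : ℤ))}

/-- Breaker's cells in the position with four cells each. -/
def deepB : Finset Cell :=
  {((1 : ℤ), (0 : ℤ)), ((0 : ℤ), (2 : ℤ)), ((0 : ℤ), (-1 : ℤ)), ((-2 : ℤ), (-2 : ℤ))}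

/-- Maker's cells in the position left open by the certificates. -/
def deep5M : Finset Cell :=
  {((0 : ℤ), (0 : ℤ)), ((0 : ℤ), (1 : ℤ)), ((0 : ℤ), (-2 : ℤ)), ((-1 : ℤ), (-2 : ℤ)), ((2 : ℤ), (-2 : ℤ))}

/-- Breaker's cells in the position left open by the certificates. -/
def deep5B : Finset Cell :=
  {((1 : ℤ), (0 : ℤ)), ((0 : ℤ), (2 : ℤ)), ((0 : ℤ), (-1 : ℤ)), ((-2 : ℤ), (-2 : ℤ)), ((1 : ℤ), (-2 : ℤ))}

theorem forced_line4 {K : ℕ} (hK : 11 ≤ K) (h : ForcedIn K deep5M deep5B) :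
    ForcedIn (K + 1) deepM deepB := by
  refine ⟨((2 : ℤ), (-2 : ℤ)), by decide, by decide, Or.inr ?_⟩
  intro b _ _
  have hM : insert ((2 : ℤ), (-2 : ℤ)) deepM = deep5M := by
    ext c; simp only [deepM, deep5M, Finset.mem_insert, Finset.mem_singleton]; tauto
  rw [hM]
  by_cases hb : b = ((1 : ℤ), (-2 : ℤ))
  · subst hb
    have hB : insert ((1 : ℤ), (-2 : ℤ)) deepB = deep5B := by
      ext c; simp only [deepB, deep5B, Finset.mem_insert, Finset.mem_singleton]; tauto
    rw [hB]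
    exact h
  · have hB : insert b deepB =
        {((1 : ℤ), (0 : ℤ)), ((0 : ℤ), (2 : ℤ)), ((0 : ℤ), (-1 : ℤ)), ((-2 : ℤ), (-2 : ℤ)), b} := by
      ext c; simp only [deepB, Finset.mem_insert, Finset.mem_singleton]; tauto
    rw [hB]
    exact ForcedIn.mono hK (line4_replies b hb)

theorem forced_line3 {K : ℕ} (hK : 13 ≤ K) (h : ForcedIn K deepM deepB) :
    ForcedIn (K + 1) openM openB := by
  refine ⟨((-1 : ℤ), (-2 : ℤ)), by decide, by decide, Or.inr ?_⟩
  intro b _ _
  have hM : insert ((-1 : ℤ), (-2 : ℤ)) openM = deepM := by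
    ext c; simp only [openM, deepM, Finset.mem_insert, Finset.mem_singleton]; tauto
  rw [hM]
  by_cases hb : b = ((-2 : ℤ), (-2 : ℤ))
  · subst hb
    have hB : insert ((-2 : ℤ), (-2 : ℤ)) openB = deepB := by
      ext c; simp only [openB, deepB, Finset.mem_insert, Finset.mem_singleton]; tauto
    rw [hB]
    exact h
  · have hB : insert b openB =
        {((1 : ℤ), (0 : ℤ)), ((0 : ℤ), (2 : ℤ)), ((0 : ℤ), (-1 : ℤ)), b} := by
      ext c; simp only [openB, Finset.mem_insert, Finset.mem_singleton]; tauto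
    rw [hB]
    exact ForcedIn.mono hK (line3_replies b hb)

/-- A forced win in the deep position gives a forced win from the empty board. -/
theorem forced_root_deep5 {K : ℕ} (hK : 12 ≤ K) (h : ForcedIn K deep5M deep5B) :
    ForcedIn (K + 5) ∅ ∅ :=
  forced_root (by omega) (forced_line3 (by omega) (forced_line4 (by omega) h))

end Vale.Agent.Snaky
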